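import Vale.Agent.P309.Region

/-! One block of samples multiplies the Frostman constant by a bounded factor. -/

namespace Vale.Agent.P309

open MeasureTheory ProbabilityTheory Set Metric
open scoped ENNReal NNReal RealInnerProductSpace

variable {E : Type*} [NormedAddCommGroup E] [InnerProductSpace ℝ E] [FiniteDimensional ℝ E]
  [MeasurableSpace E] [BorelSpace E]

theorem block_step {n m : ℕ} (hn : 0 < n) (hd : 0 < Module.finrank ℝ E)
    (hdn : Module.finrank ℝ E ≤ 32 * n) {μ : Measure E} [IsFiniteMeasure μ]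
    {W : Type*} [MeasurableSpace W] [Countable W] [MeasurableSingletonClass W] (S : Finset W)
    (hS : S.card ≤ 2 ^ (m * n)) {u : W → E → ℝ≥0∞} (hu : ∀ w, Measurable (u w))
    (hu1 : ∀ w s, u w s ≤ 1) {Λ : ℝ≥0∞} (h0 : Λ ≠ 0) (h1 : Λ ≠ ⊤)
    (hF : ∀ w ∈ S, Frost (μ.withDensity (u w)) Λ (5 * n + 1))
    {F : (Fin (2 * n) → E) × (Fin (2 * n) → ℝ) → W} (hFm : Measurable F) (hFS : ∀ z, F z ∈ S)
    {v : E → ℝ≥0∞}
    (hv : ∀ s, v s = ∫⁻ X, u (F (X, lab X s)) s ∂(Measure.pi fun _ : Fin (2 * n) => stdGaussian E)) :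
    Frost (μ.withDensity v) (2 ^ (m + 19 * n + 4) * Λ) (5 * n + 1) := by
  classical
  intro c r hr
  set P := Measure.pi fun _ : Fin (2 * n) => stdGaussian E with hP
  set R := {z : (Fin (2 * n) → E) × (Fin (2 * n) → ℝ) | ∃ u ∈ closedBall c r, z.2 = lab z.1 u}
    with hR
  have hRm : MeasurableSet R := (isClosed_region _ c r).measurableSet
  let A : W → Set ((Fin (2 * n) → E) × (Fin (2 * n) → ℝ)) := fun w => F ⁻¹' {w} ∩ R
  have hAm : ∀ w, MeasurableSet (A w) := fun w => (hFm (measurableSet_singleton w)).inter hRm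
  have hmap : Measurable fun p : E × (Fin (2 * n) → E) => (p.2, lab p.2 p.1) :=
    measurable_snd.prodMk ((measurable_lab _).comp measurable_swap)
  have hg : ∀ w, Measurable fun s => P {X | (X, lab X s) ∈ A w} := fun w =>
    measurable_measure_prodMk_left (hmap (hAm w))
  set K := Λ * ENNReal.ofReal (2 ^ (2 * (2 * n) + (3 * n + 1) + 1) * (2 * r) ^ (3 * n + 1)) with hK
  have hK0 : K ≠ 0 := mul_ne_zero h0 (by
    simp only [ne_eq, ENNReal.ofReal_eq_zero, not_le]; positivity)
  have hK1 : K ≠ ⊤ := ENNReal.mul_ne_top h1 ENNReal.ofReal_ne_top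
  have h2m0 : (2 : ℝ≥0∞) ^ m ≠ 0 := pow_ne_zero _ two_ne_zero
  have h2m1 : (2 : ℝ≥0∞) ^ m ≠ ⊤ := ENNReal.pow_ne_top ENNReal.ofNat_ne_top
  have step1 : ∀ s ∈ closedBall c r, v s = ∑ w ∈ S, u w s * P {X | (X, lab X s) ∈ A w} := by
    intro s hs
    have hs' : Measurable fun X : Fin (2 * n) → E => (X, lab X s) :=
      hmap.comp (measurable_prodMk_left (x := s))
    rw [hv]
    have e : ∀ X, u (F (X, lab X s)) s =
        ∑ w ∈ S, {X | (X, lab X s) ∈ A w}.indicator (fun _ => u w s) X := by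
      intro X
      rw [Finset.sum_eq_single_of_mem (F (X, lab X s)) (hFS _)]
      · rw [indicator_of_mem]
        exact ⟨rfl, s, hs, rfl⟩
      · intro w _ hw
        rw [indicator_of_notMem]
        exact fun h => hw h.1.symm
    simp_rw [e]
    have hm : ∀ w, MeasurableSet {X | (X, lab X s) ∈ A w} := fun w => hs' (hAm w)
    rw [lintegral_finsetSum _ fun w _ => measurable_const.indicator (hm w)]
    refine Finset.sum_congr rfl fun w _ => ?_
    exact lintegral_indicator_const (hm w) _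
  have step2 : ∀ w ∈ S, ∫⁻ s in closedBall c r, u w s * P {X | (X, lab X s) ∈ A w} ∂μ ≤
      2 ^ m * K * (P.prod volume) (A w) +
        Λ * ENNReal.ofReal (r ^ (5 * n + 1)) * (2 ^ (m * n))⁻¹ := by
    intro w hw
    set ν := (μ.withDensity (u w)).restrict (closedBall c r) with hν
    have hle : μ.withDensity (u w) ≤ μ := by
      conv_rhs => rw [← withDensity_one (μ := μ)]
      exact withDensity_mono (Filter.Eventually.of_forall (hu1 w))
    have : IsFiniteMeasure ν := isFiniteMeasure_of_le μ (Measure.restrict_le_self.trans hle)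
    have hFν : Frost ν Λ (2 * n + (3 * n + 1)) := by
      rw [show 2 * n + (3 * n + 1) = 5 * n + 1 by ring]
      exact (hF w hw).mono Measure.restrict_le_self le_rfl
    have hr' := radon h1 hFν (q := n) le_rfl c hr (ae_restrict_mem measurableSet_closedBall)
      (mul_ne_zero h2m0 hK0) (ENNReal.mul_ne_top h2m1 hK1) (A := A w)
    have e1 : ∫⁻ s in closedBall c r, u w s * P {X | (X, lab X s) ∈ A w} ∂μ =
        ∫⁻ s, P {X | (X, lab X s) ∈ A w} ∂ν := by
      rw [hν, restrict_withDensity measurableSet_closedBall,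
        lintegral_withDensity_eq_lintegral_mul _ (hu w) (hg w)]
      rfl
    rw [e1]
    refine hr'.trans (add_le_add le_rfl (mul_le_mul' ?_ (le_of_eq ?_)))
    · rw [hν, Measure.restrict_apply_univ]; exact hF w hw c r hr
    · rw [← hK, mul_pow, ENNReal.mul_inv (Or.inl (pow_ne_zero _ h2m0))
        (Or.inl (ENNReal.pow_ne_top h2m1)), mul_assoc,
        ENNReal.inv_mul_cancel (pow_ne_zero _ hK0) (ENNReal.pow_ne_top hK1), mul_one, ← pow_mul]
  have step3 : ∑ w ∈ S, (P.prod volume) (A w) ≤ ENNReal.ofReal (2 ^ (9 * n) * r ^ (2 * n)) := by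
    rw [← measure_biUnion_finset _ fun w _ => hAm w]
    · refine le_trans (measure_mono ?_) (region_bound hn hd hdn c hr)
      exact iUnion₂_subset fun w _ => inter_subset_right
    · intro w _ w' _ hww
      exact Set.disjoint_left.2 fun z h h' => hww (h.1.symm.trans h'.1)
  rw [withDensity_apply _ measurableSet_closedBall,
    setLIntegral_congr_fun measurableSet_closedBall step1,
    lintegral_finsetSum _ fun w _ => (hu w).fun_mul (hg w)]
  refine (Finset.sum_le_sum step2).trans ?_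
  rw [Finset.sum_add_distrib, ← Finset.mul_sum, Finset.sum_const, nsmul_eq_mul]
  have a1 : (S.card : ℝ≥0∞) * (Λ * ENNReal.ofReal (r ^ (5 * n + 1)) * (2 ^ (m * n))⁻¹) ≤
      Λ * ENNReal.ofReal (r ^ (5 * n + 1)) := by
    have a2 : (S.card : ℝ≥0∞) ≤ 2 ^ (m * n) := by exact_mod_cast hS
    calc _ ≤ 2 ^ (m * n) * (Λ * ENNReal.ofReal (r ^ (5 * n + 1)) * (2 ^ (m * n))⁻¹) := by gcongr
      _ = _ := by
        rw [mul_comm, mul_assoc, ENNReal.inv_mul_cancel (pow_ne_zero _ two_ne_zero)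
          (ENNReal.pow_ne_top ENNReal.ofNat_ne_top), mul_one]
  have a3 : 2 ^ m * K * ENNReal.ofReal (2 ^ (9 * n) * r ^ (2 * n)) =
      2 ^ (m + 19 * n + 3) * (Λ * ENNReal.ofReal (r ^ (5 * n + 1))) := by
    have : ENNReal.ofReal (2 ^ (2 * (2 * n) + (3 * n + 1) + 1) * (2 * r) ^ (3 * n + 1)) *
        ENNReal.ofReal (2 ^ (9 * n) * r ^ (2 * n)) =
        2 ^ (19 * n + 3) * ENNReal.ofReal (r ^ (5 * n + 1)) := by
      rw [← ENNReal.ofReal_mul (by positivity), ← ENNReal.ofReal_ofNat 2,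
        ← ENNReal.ofReal_pow (by norm_num), ← ENNReal.ofReal_mul (by positivity)]
      congr 1
      rw [mul_pow]; ring
    rw [hK, mul_assoc, mul_assoc, this]
    ring
  calc _ ≤ 2 ^ m * K * ENNReal.ofReal (2 ^ (9 * n) * r ^ (2 * n)) +
        Λ * ENNReal.ofReal (r ^ (5 * n + 1)) := by gcongr
    _ ≤ 2 ^ (m + 19 * n + 3) * (Λ * ENNReal.ofReal (r ^ (5 * n + 1))) +
        2 ^ (m + 19 * n + 3) * (Λ * ENNReal.ofReal (r ^ (5 * n + 1))) := by
        rw [a3]
        exact add_le_add le_rfl <| le_mul_of_one_le_left' (one_le_pow₀ (by norm_num : (1 : ℝ≥0∞) ≤ 2))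
    _ = _ := by rw [pow_succ _ (m + 19 * n + 3)]; ring

end Vale.Agent.P309
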