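import Mathlib

/-! Covering of slabs by balls. -/

namespace Vale.Agent.P309

open MeasureTheory Set Metric
open scoped ENNReal NNReal RealInnerProductSpace

theorem cover_two (F : Type*) [NormedAddCommGroup F] [NormedSpace ℝ F] [FiniteDimensional ℝ F] :
    ∃ t : Finset F, t.card ≤ 5 ^ Module.finrank ℝ F ∧
      ∀ x : F, ‖x‖ ≤ 2 → ∃ c ∈ t, ‖x - c‖ ≤ 1 := by
  classical
  let P : ℕ → Prop := fun n => ∃ t : Finset F, t.card = n ∧ (∀ c ∈ t, ‖c‖ ≤ 2) ∧
    ∀ c ∈ t, ∀ d ∈ t, c ≠ d → 1 ≤ ‖c - d‖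
  have h0 : P 0 := ⟨∅, by simp⟩
  obtain ⟨t, h1, h2, h3⟩ : P (Nat.findGreatest P (5 ^ Module.finrank ℝ F)) :=
    Nat.findGreatest_spec (Nat.zero_le _) h0
  refine ⟨t, Besicovitch.card_le_of_separated t h2 h3, ?_⟩
  intro x hx
  by_contra hc
  push Not at hc
  have hxt : x ∉ t := fun h => by have := hc x h; simp at this; linarith
  have h4 : ∀ c ∈ insert x t, ‖c‖ ≤ 2 := by
    intro c hc'
    rcases Finset.mem_insert.1 hc' with h | h
    · rw [h]; exact hx
    · exact h2 c h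
  have h5 : ∀ c ∈ insert x t, ∀ d ∈ insert x t, c ≠ d → 1 ≤ ‖c - d‖ := by
    intro c hc' d hd' hcd
    rcases Finset.mem_insert.1 hc' with h | h <;> rcases Finset.mem_insert.1 hd' with h' | h'
    · exact absurd (h.trans h'.symm) hcd
    · rw [h]; exact (hc d h').le
    · rw [h', norm_sub_rev]; exact (hc c h).le
    · exact h3 c h d h' hcd
  have h6 := Besicovitch.card_le_of_separated _ h4 h5
  have h7 : P (t.card + 1) := ⟨insert x t, Finset.card_insert_of_notMem hxt, h4, h5⟩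
  rw [Finset.card_insert_of_notMem hxt] at h6
  have := Nat.le_findGreatest h6 h7
  omega

theorem cover_pow (F : Type*) [NormedAddCommGroup F] [NormedSpace ℝ F] [FiniteDimensional ℝ F]
    {R : ℝ} (hR : 0 < R) (j : ℕ) :
    ∃ t : Finset F, t.card ≤ (5 ^ Module.finrank ℝ F) ^ j ∧
      ∀ x : F, ‖x‖ ≤ R → ∃ c ∈ t, ‖x - c‖ ≤ R / 2 ^ j := by
  classical
  obtain ⟨t₀, h1, h2⟩ := cover_two F
  induction j with
  | zero => exact ⟨{0}, by simp, fun x hx => ⟨0, by simp, by simpa using hx⟩⟩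
  | succ j ih =>
    obtain ⟨t, h3, h4⟩ := ih
    set a : ℝ := R / 2 ^ (j + 1) with ha
    have ha0 : 0 < a := by positivity
    refine ⟨Finset.image₂ (fun c e => c + a • e) t t₀, ?_, ?_⟩
    · refine (Finset.card_image₂_le _ _ _).trans ?_
      rw [pow_succ]; exact Nat.mul_le_mul h3 h1
    · intro x hx
      obtain ⟨c, hc, hxc⟩ := h4 x hx
      obtain ⟨e, he, hxe⟩ := h2 (a⁻¹ • (x - c)) (by
        rw [norm_smul, norm_inv, Real.norm_of_nonneg ha0.le, inv_mul_le_iff₀ ha0]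
        refine hxc.trans (le_of_eq ?_)
        rw [ha, pow_succ]; field_simp)
      refine ⟨c + a • e, Finset.mem_image₂_of_mem hc he, ?_⟩
      have : x - (c + a • e) = a • (a⁻¹ • (x - c) - e) := by
        rw [smul_sub, smul_inv_smul₀ ha0.ne']; abel
      rw [this, norm_smul, Real.norm_of_nonneg ha0.le]
      exact mul_le_of_le_one_right ha0.le hxe

variable {E : Type*} [NormedAddCommGroup E] [InnerProductSpace ℝ E] [FiniteDimensional ℝ E]
  [MeasurableSpace E] [BorelSpace E]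

/-- Frostman type bound. -/
def Frost (μ : Measure E) (Λ : ℝ≥0∞) (α : ℕ) : Prop :=
  ∀ (c : E) (ρ : ℝ), 0 < ρ → μ (closedBall c ρ) ≤ Λ * ENNReal.ofReal (ρ ^ α)

omit [InnerProductSpace ℝ E] [FiniteDimensional ℝ E] [BorelSpace E] in
theorem Frost.mono {μ ν : Measure E} {Λ Λ' : ℝ≥0∞} {α : ℕ} (h : Frost μ Λ α) (h1 : ν ≤ μ)
    (h2 : Λ ≤ Λ') : Frost ν Λ' α :=
  fun c ρ hρ => (h1 _).trans ((h c ρ hρ).trans (by gcongr))

omit [BorelSpace E] in
theorem slab_bound {μ : Measure E} {Λ : ℝ≥0∞} {α q : ℕ} (h : Frost μ Λ α) (V : Submodule ℝ E)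
    (hV : Module.finrank ℝ V ≤ q) (s₁ : E) {R : ℝ} (hR : 0 < R) (j : ℕ) :
    μ {s | ‖s - s₁‖ ≤ R ∧ ‖(s - s₁) - V.starProjection (s - s₁)‖ ≤ R / 2 ^ j} ≤
      (5 ^ q) ^ j * (Λ * ENNReal.ofReal ((2 * R / 2 ^ j) ^ α)) := by
  obtain ⟨t, h1, h2⟩ := cover_pow V hR j
  have hsub : {s | ‖s - s₁‖ ≤ R ∧ ‖(s - s₁) - V.starProjection (s - s₁)‖ ≤ R / 2 ^ j} ⊆
      ⋃ c ∈ t, closedBall (s₁ + (c : E)) (2 * R / 2 ^ j) := by
    rintro s ⟨hs1, hs2⟩
    obtain ⟨c, hc, hc2⟩ := h2 ⟨V.starProjection (s - s₁), V.starProjection_apply_mem _⟩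
      ((V.norm_starProjection_apply_le _).trans hs1)
    refine mem_biUnion hc ?_
    rw [mem_closedBall, dist_eq_norm]
    have h3 : ‖V.starProjection (s - s₁) - c‖ ≤ R / 2 ^ j := hc2
    have : s - (s₁ + c) = ((s - s₁) - V.starProjection (s - s₁)) +
      (V.starProjection (s - s₁) - c) := by abel
    rw [this]
    refine (norm_add_le _ _).trans ?_
    rw [mul_div_assoc]; linarith
  refine (measure_mono hsub).trans ((measure_biUnion_finset_le _ _).trans ?_)
  refine (Finset.sum_le_card_nsmul _ _ _ fun c _ => h _ _ (by positivity)).trans ?_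
  rw [nsmul_eq_mul]
  gcongr
  have : t.card ≤ (5 ^ q) ^ j :=
    h1.trans (Nat.pow_le_pow_left (Nat.pow_le_pow_right (by norm_num) hV) _)
  exact_mod_cast this

/-- The singular integral near an affine subspace. -/
theorem weight_bound {μ : Measure E} {Λ : ℝ≥0∞} {k β q : ℕ} (h : Frost μ Λ (k + β))
    (hβ : 3 * q + 1 ≤ β) (V : Submodule ℝ E) (hV : Module.finrank ℝ V ≤ q) (s₁ : E) {R δ : ℝ}
    (hR : 0 < R) (hδ : 0 < δ) (hμ : ∀ᵐ s ∂μ, ‖s - s₁‖ ≤ R) (φ : E → ℝ≥0∞) (h1 : ∀ s, φ s ≤ 1)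
    (h2 : ∀ s, 0 < ‖(s - s₁) - V.starProjection (s - s₁)‖ →
      φ s ≤ ENNReal.ofReal (δ / ‖(s - s₁) - V.starProjection (s - s₁)‖) ^ k) :
    ∫⁻ s, φ s ∂μ ≤ Λ * ENNReal.ofReal (2 ^ (2 * k + β + 1) * R ^ β) * ENNReal.ofReal (δ ^ k) := by
  set D : ℕ → Set E := fun j =>
    {s | ‖s - s₁‖ ≤ R ∧ ‖(s - s₁) - V.starProjection (s - s₁)‖ ≤ R / 2 ^ j} with hD
  have hDm : ∀ j, MeasurableSet (D j) := by
    intro j
    apply MeasurableSet.inter
    · exact measurableSet_le (f := fun s : E => ‖s - s₁‖) (by fun_prop) measurable_const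
    · exact measurableSet_le (f := fun s : E => ‖(s - s₁) - V.starProjection (s - s₁)‖)
        (by fun_prop) measurable_const
  have hpt : ∀ᵐ s ∂μ, φ s ≤
      ∑' j : ℕ, (D j).indicator (fun _ => ENNReal.ofReal ((2 ^ (j + 1) * δ / R) ^ k)) s := by
    filter_upwards [hμ] with s hs
    set x := ‖(s - s₁) - V.starProjection (s - s₁)‖ with hx
    have hxR : x ≤ R := by
      refine le_trans ?_ hs
      rw [hx, ← Submodule.starProjection_orthogonal_val]
      exact Submodule.norm_starProjection_apply_le _ _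
    rcases (show 0 ≤ x from norm_nonneg _).eq_or_lt with h0 | h0
    · obtain ⟨j, hj⟩ := pow_unbounded_of_one_lt (R / δ) (show (1 : ℝ) < 2 by norm_num)
      refine (h1 s).trans (le_trans ?_ (ENNReal.le_tsum j))
      have : s ∈ D j := ⟨hs, by rw [← hx, ← h0]; positivity⟩
      rw [indicator_of_mem this, ENNReal.one_le_ofReal]
      apply one_le_pow₀
      rw [le_div_iff₀ hR, pow_succ]
      rw [div_lt_iff₀ hδ] at hj
      nlinarith
    · obtain ⟨j, hj1, hj2⟩ := exists_nat_pow_near (x := R / x) (y := 2)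
        (by rw [le_div_iff₀ h0]; linarith) (by norm_num)
      refine (h2 s h0).trans (le_trans ?_ (ENNReal.le_tsum j))
      have : s ∈ D j := ⟨hs, by
        rw [← hx, le_div_iff₀ (by positivity)]
        rw [le_div_iff₀ h0] at hj1; linarith⟩
      rw [indicator_of_mem this, ← hx, ← ENNReal.ofReal_pow (by positivity)]
      apply ENNReal.ofReal_le_ofReal
      apply pow_le_pow_left₀ (by positivity)
      rw [div_le_div_iff₀ h0 hR]
      rw [div_lt_iff₀ h0] at hj2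
      nlinarith
  refine (lintegral_mono_ae hpt).trans ?_
  rw [lintegral_tsum fun j => (measurable_const.indicator (hDm j)).aemeasurable]
  have hterm : ∀ j : ℕ, ∫⁻ s, (D j).indicator
      (fun _ => ENNReal.ofReal ((2 ^ (j + 1) * δ / R) ^ k)) s ∂μ ≤
      Λ * ENNReal.ofReal (2 ^ (2 * k + β) * R ^ β * δ ^ k) * (2⁻¹ : ℝ≥0∞) ^ j := by
    intro j
    rw [lintegral_indicator_const (hDm j)]
    have e1 : ((5 : ℝ≥0∞) ^ q) ^ j = ENNReal.ofReal ((5 ^ q) ^ j) := by
      rw [ENNReal.ofReal_pow (by positivity), ENNReal.ofReal_pow (by positivity)]; simp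
    have e2 : (2⁻¹ : ℝ≥0∞) ^ j = ENNReal.ofReal ((2⁻¹) ^ j) := by
      rw [ENNReal.ofReal_pow (by positivity), ENNReal.ofReal_inv_of_pos (by norm_num)]; simp
    calc _ ≤ ENNReal.ofReal ((2 ^ (j + 1) * δ / R) ^ k) *
          ((5 ^ q) ^ j * (Λ * ENNReal.ofReal ((2 * R / 2 ^ j) ^ (k + β)))) := by
          gcongr; exact slab_bound h V hV s₁ hR j
      _ = Λ * ENNReal.ofReal ((2 ^ (j + 1) * δ / R) ^ k * (5 ^ q) ^ j *
            (2 * R / 2 ^ j) ^ (k + β)) := by
          rw [e1, ENNReal.ofReal_mul (by positivity), ENNReal.ofReal_mul (by positivity)]; ring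
      _ ≤ _ := by
          rw [e2, mul_assoc Λ, ← ENNReal.ofReal_mul (by positivity)]
          refine mul_le_mul_right (ENNReal.ofReal_le_ofReal ?_) _
          have e3 : (2 ^ (j + 1) * δ / R) ^ k * (5 ^ q) ^ j * (2 * R / 2 ^ j) ^ (k + β)
              = 2 ^ (2 * k + β) * R ^ β * δ ^ k * ((5 : ℝ) ^ q / 2 ^ β) ^ j := by
            simp only [div_pow, mul_pow, pow_add, ← pow_mul]
            field_simp
            ring
          rw [e3]
          gcongr
          rw [div_le_iff₀ (by positivity)]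
          calc (5 : ℝ) ^ q ≤ 8 ^ q := by gcongr; norm_num
            _ = 2⁻¹ * 2 ^ (3 * q + 1) := by rw [pow_succ, pow_mul]; norm_num; ring
            _ ≤ _ := by gcongr; norm_num
  refine (ENNReal.tsum_le_tsum hterm).trans ?_
  rw [ENNReal.tsum_mul_left, ENNReal.tsum_geometric, ENNReal.one_sub_inv_two, inv_inv,
    mul_assoc Λ, mul_assoc Λ, ← ENNReal.ofReal_mul (by positivity)]
  refine mul_le_mul_right ?_ _
  rw [show (2 : ℝ≥0∞) = ENNReal.ofReal 2 by simp, ← ENNReal.ofReal_mul (by positivity)]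
  apply le_of_eq; congr 1; ring

end Vale.Agent.P309
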