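import Mathlib

/-! Memory-bounded learners for noiseless Gaussian linear regression. -/

namespace Vale.Agent.P309

open MeasureTheory ProbabilityTheory

/-- Euclidean space of dimension `d`. -/
abbrev Sp (d : ℕ) : Type := EuclideanSpace ℝ (Fin d)

/-- The unit sphere. -/
abbrev Sph (d : ℕ) : Type := Metric.sphere (0 : Sp d) 1

/-- The uniform probability measure on the unit sphere (normalised cone measure). -/
noncomputable def unifSphere (d : ℕ) : Measure (Sph d) :=
  ((volume : Measure (Sp d)).toSphere Set.univ)⁻¹ • (volume : Measure (Sp d)).toSphere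

/-- A streaming learner with `N` states. All rules may read the random seed in `Ω`,
the index, the current state and (for transitions and stopping) the current pair. -/
structure Learner (d N : ℕ) (Ω : Type) [MeasurableSpace Ω] where
  init : Ω → Fin N
  step : ℕ → Ω × Fin N × (Sp d × ℝ) → Fin N
  stop : ℕ → Ω × Fin N × (Sp d × ℝ) → Bool
  out : ℕ → Ω × Fin N → Sph d
  measurable_init : Measurable init
  measurable_step : ∀ t, Measurable (step t)
  measurable_stop : ∀ t, Measurable (stop t)
  measurable_out : ∀ t, Measurable (out t)

/-- Output of the learner with seed `ω`, started at index `t` in state `w`,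
when at most `n` further pairs `z 0, z 1, …` may be read. -/
def Learner.run {d N : ℕ} {Ω : Type} [MeasurableSpace Ω] (L : Learner d N Ω) (ω : Ω) :
    (n : ℕ) → ℕ → Fin N → (Fin n → Sp d × ℝ) → Sph d
  | 0, t, w, _ => L.out t (ω, w)
  | n + 1, t, w, z =>
    if L.stop t (ω, w, z 0) = true then L.out (t + 1) (ω, L.step t (ω, w, z 0))
    else L.run ω n (t + 1) (L.step t (ω, w, z 0)) (Fin.tail z)

/-- Success probability at angular accuracy `ε` with horizon `T`: the seed has law `P`,
the signal is uniform on the sphere, the rows are independent standard Gaussians,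
all independent, and labels are exact. -/
noncomputable def Learner.success {d N : ℕ} {Ω : Type} [MeasurableSpace Ω] (L : Learner d N Ω)
    (P : Measure Ω) (T : ℕ) (ε : ℝ) : ENNReal :=
  (P.prod ((unifSphere d).prod (Measure.pi fun _ : Fin T => stdGaussian (Sp d))))
    {p | Real.arccos (inner ℝ
      (L.run p.1 T 0 (L.init p.1) (fun i => (p.2.2 i, inner ℝ (p.2.2 i) (p.2.1 : Sp d))) : Sp d)
      (p.2.1 : Sp d)) ≤ ε}

end Vale.Agent.P309
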