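import Mathlib

/-! Gaussian facts for P309. -/

namespace Vale.Agent.P309

open MeasureTheory ProbabilityTheory Set
open scoped ENNReal NNReal RealInnerProductSpace

theorem gaussianReal_interval {D : ℝ} (hD : 0 < D) (a δ : ℝ) :
    gaussianReal 0 (D ^ 2).toNNReal {y | |a + y| ≤ δ} ≤ ENNReal.ofReal (δ / D) := by
  have hv : (D ^ 2).toNNReal ≠ 0 := by
    simp only [ne_eq, Real.toNNReal_eq_zero, not_le]; positivity
  rw [gaussianReal_apply _ hv]
  have hset : {y : ℝ | |a + y| ≤ δ} = Icc (-a - δ) (-a + δ) := by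
    ext y; simp only [mem_ofPred_eq, abs_le, mem_Icc]; constructor <;> rintro ⟨h1, h2⟩ <;>
      constructor <;> linarith
  rw [hset]
  have hb : ∀ y, gaussianPDF 0 (D ^ 2).toNNReal y ≤ ENNReal.ofReal (1 / (2 * D)) := by
    intro y
    apply ENNReal.ofReal_le_ofReal
    rw [gaussianPDFReal, Real.coe_toNNReal _ (by positivity)]
    have h1 : Real.exp (-(y - 0) ^ 2 / (2 * D ^ 2)) ≤ 1 := by
      rw [Real.exp_le_one_iff]
      apply div_nonpos_of_nonpos_of_nonneg (by nlinarith [sq_nonneg (y - 0)]) (by positivity)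
    have h2 : 2 * D ≤ Real.sqrt (2 * Real.pi * D ^ 2) := by
      apply Real.le_sqrt_of_sq_le
      have := Real.pi_gt_three
      nlinarith [sq_nonneg D]
    calc _ ≤ (Real.sqrt (2 * Real.pi * D ^ 2))⁻¹ * 1 := by gcongr
      _ ≤ _ := by rw [mul_one, one_div]; exact inv_anti₀ (by positivity) h2
  calc ∫⁻ y in Icc (-a - δ) (-a + δ), gaussianPDF 0 (D ^ 2).toNNReal y
      ≤ ∫⁻ y in Icc (-a - δ) (-a + δ), ENNReal.ofReal (1 / (2 * D)) := lintegral_mono hb
    _ = ENNReal.ofReal (δ / D) := by
      rw [setLIntegral_const, Real.volume_Icc, ← ENNReal.ofReal_mul (by positivity)]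
      congr 1; field_simp; ring

variable {E : Type*} [NormedAddCommGroup E] [InnerProductSpace ℝ E] [FiniteDimensional ℝ E]
  [MeasurableSpace E] [BorelSpace E]

theorem cov_inner (a b : E) :
    cov[fun x => ⟪a, x⟫, fun x => ⟪b, x⟫; stdGaussian E] = ⟪a, b⟫ := by
  rw [← covarianceBilin_apply_eq_cov IsGaussian.memLp_two_id, covarianceBilin_stdGaussian]
  rfl

theorem map_inner (b : E) :
    (stdGaussian E).map (fun x => ⟪b, x⟫) = gaussianReal 0 (‖b‖ ^ 2).toNNReal := by
  have := IsGaussian.map_eq_gaussianReal (μ := stdGaussian E) (innerSL ℝ b)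
  rw [integral_strongDual_stdGaussian, variance_dual_stdGaussian, innerSL_apply_norm] at this
  exact this

theorem anticonc (V : Submodule ℝ E) {B : Set E} (hB : MeasurableSet B)
    (hinv : ∀ x w, w ∈ Vᗮ → (x + w ∈ B ↔ x ∈ B)) (u : E) (δ : ℝ)
    (hD : 0 < ‖u - V.starProjection u‖) :
    stdGaussian E (B ∩ {x | |⟪x, u⟫| ≤ δ}) ≤
      stdGaussian E B * ENNReal.ofReal (δ / ‖u - V.starProjection u‖) := by
  set b := u - V.starProjection u with hb
  have hbV : b ∈ Vᗮ := V.sub_starProjection_mem_orthogonal u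
  have hG : HasGaussianLaw (fun x : E => (V.starProjection x, ⟪b, x⟫)) (stdGaussian E) :=
    IsGaussian.hasGaussianLaw_id.map_fun (V.starProjection.prod (innerSL ℝ b))
  have hI : IndepFun (fun x : E => V.starProjection x) (fun x => ⟪b, x⟫) (stdGaussian E) := by
    apply hG.indepFun_of_covariance_inner
    intro a y
    have e1 : (fun x : E => ⟪a, V.starProjection x⟫) = fun x => ⟪V.starProjection a, x⟫ := by
      funext x; rw [Submodule.inner_starProjection_left_eq_right]
    have e2 : (fun x : E => ⟪y, ⟪b, x⟫⟫) = fun x => ⟪y • b, x⟫ := by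
      funext x; rw [real_inner_smul_left]; simp [mul_comm]
    rw [e1, e2, cov_inner, real_inner_smul_right,
      Submodule.inner_right_of_mem_orthogonal (V.starProjection_apply_mem a) hbV, mul_zero]
  have hm1 : Measurable (fun x : E => V.starProjection x) := by fun_prop
  have hm2 : Measurable (fun x : E => ⟪b, x⟫) := by fun_prop
  rw [indepFun_iff_map_prod_eq_prod_map_map hm1.aemeasurable hm2.aemeasurable, map_inner] at hI
  have hS : MeasurableSet {p : E × ℝ | p.1 ∈ B ∧ |⟪p.1, u⟫ + p.2| ≤ δ} := by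
    apply MeasurableSet.inter (measurable_fst hB)
    exact measurableSet_le (f := fun p : E × ℝ => |⟪p.1, u⟫ + p.2|) (by fun_prop) measurable_const
  have hBP : ∀ x, V.starProjection x ∈ B ↔ x ∈ B := by
    intro x
    have := hinv (V.starProjection x) _ (V.sub_starProjection_mem_orthogonal x)
    rw [add_sub_cancel] at this
    exact this.symm
  have e3 : B ∩ {x | |⟪x, u⟫| ≤ δ} = (fun x : E => (V.starProjection x, ⟪b, x⟫)) ⁻¹'
      {p : E × ℝ | p.1 ∈ B ∧ |⟪p.1, u⟫ + p.2| ≤ δ} := by
    ext x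
    simp only [mem_inter_iff, mem_ofPred_eq, mem_preimage, hBP]
    have : ⟪V.starProjection x, u⟫ + ⟪b, x⟫ = ⟪x, u⟫ := by
      rw [Submodule.inner_starProjection_left_eq_right, hb, real_inner_comm x, inner_sub_right]
      ring
    rw [this]
  rw [e3, ← Measure.map_apply (hm1.prodMk hm2) hS, hI, Measure.prod_apply hS]
  calc _ ≤ ∫⁻ a, B.indicator (fun _ => ENNReal.ofReal (δ / ‖b‖)) a
        ∂((stdGaussian E).map (fun x : E => V.starProjection x)) := by
        apply lintegral_mono
        intro a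
        by_cases ha : a ∈ B
        · simp only [indicator_of_mem ha]
          refine le_trans (le_of_eq ?_) (gaussianReal_interval hD ⟪a, u⟫ δ)
          congr 1; ext y; simp [ha]
        · simp only [indicator_of_notMem ha]
          have : Prod.mk a ⁻¹' {p : E × ℝ | p.1 ∈ B ∧ |⟪p.1, u⟫ + p.2| ≤ δ} = ∅ := by
            ext y; simp [ha]
          rw [this]; simp
    _ = _ := by
        rw [lintegral_indicator_const hB, Measure.map_apply hm1 hB, mul_comm]
        congr 2
        ext x; simp [hBP]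

theorem integral_norm_sq : ∫ x, ‖x‖ ^ 2 ∂(stdGaussian E) = Module.finrank ℝ E := by
  have h1 : ∀ x : E, ‖x‖ ^ 2 = ∑ i, ⟪stdOrthonormalBasis ℝ E i, x⟫ ^ 2 :=
    fun x => ((stdOrthonormalBasis ℝ E).sum_sq_inner_right x).symm
  simp_rw [h1]
  have h2 : ∀ b : E, MemLp (fun x => ⟪b, x⟫) 2 (stdGaussian E) := fun b =>
    IsGaussian.memLp_dual _ (innerSL ℝ b) 2 (by simp)
  rw [integral_finsetSum _ fun i _ => (h2 _).integrable_sq]
  have h3 : ∀ i, ∫ x, ⟪stdOrthonormalBasis ℝ E i, x⟫ ^ 2 ∂(stdGaussian E) = 1 := by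
    intro i
    have h4 := variance_dual_stdGaussian (innerSL ℝ (stdOrthonormalBasis ℝ E i))
    rw [variance_of_integral_eq_zero (by fun_prop) (integral_strongDual_stdGaussian _),
      innerSL_apply_norm, (stdOrthonormalBasis ℝ E).orthonormal.1 i] at h4
    simpa using h4
  simp [h3]

theorem lintegral_norm_le (hd : 0 < Module.finrank ℝ E) :
    ∫⁻ x, ENNReal.ofReal ‖x‖ ∂(stdGaussian E) ≤
      ENNReal.ofReal (Real.sqrt (Module.finrank ℝ E)) := by
  set a := Real.sqrt (Module.finrank ℝ E) with ha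
  have ha0 : 0 < a := Real.sqrt_pos.2 (by exact_mod_cast hd)
  have ha2 : a ^ 2 = Module.finrank ℝ E := Real.sq_sqrt (by positivity)
  have hi : Integrable (fun x : E => ‖x‖ ^ 2) (stdGaussian E) :=
    (IsGaussian.memLp_two_id (μ := stdGaussian E)).norm.integrable_sq
  have hi2 : Integrable (fun x : E => ‖x‖ ^ 2 / (2 * a) + a / 2) (stdGaussian E) :=
    (hi.div_const _).add (integrable_const _)
  calc _ ≤ ∫⁻ x, ENNReal.ofReal (‖x‖ ^ 2 / (2 * a) + a / 2) ∂(stdGaussian E) := by
        apply lintegral_mono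
        intro x
        apply ENNReal.ofReal_le_ofReal
        rw [div_add' _ _ _ (by positivity), le_div_iff₀ (by positivity)]
        nlinarith [sq_nonneg (‖x‖ - a)]
    _ = ENNReal.ofReal (∫ x, (‖x‖ ^ 2 / (2 * a) + a / 2) ∂(stdGaussian E)) :=
        (ofReal_integral_eq_lintegral_ofReal hi2 (ae_of_all _ fun x => by positivity)).symm
    _ = _ := by
        rw [integral_add (hi.div_const _) (integrable_const _), integral_div, integral_norm_sq,
          ← ha2]
        congr 1
        simp; field_simp; ring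

end Vale.Agent.P309
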