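import Vale.Agent.P309.Cover

/-! The uniform measure on the sphere: caps, invariance, isotropy. -/

namespace Vale.Agent.P309

open MeasureTheory Set Metric
open scoped ENNReal NNReal RealInnerProductSpace Pointwise

variable (E : Type*) [NormedAddCommGroup E] [InnerProductSpace ℝ E] [FiniteDimensional ℝ E]
  [MeasurableSpace E] [BorelSpace E]

noncomputable def sph : Measure E :=
  ((((volume : Measure E).toSphere univ)⁻¹ • (volume : Measure E).toSphere)).map Subtype.val

variable {E}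

theorem sph_apply (hd : 0 < Module.finrank ℝ E) {A : Set E} (hA : MeasurableSet A) :
    sph E A = (volume (ball (0 : E) 1))⁻¹ * volume (Ioo (0 : ℝ) 1 • (A ∩ sphere (0 : E) 1)) := by
  rw [sph, Measure.map_apply measurable_subtype_coe hA, Measure.smul_apply,
    Measure.toSphere_apply' _ (measurable_subtype_coe hA), Measure.toSphere_apply_univ,
    Subtype.image_preimage_coe, inter_comm, smul_eq_mul]
  have h0 : (Module.finrank ℝ E : ℝ≥0∞) ≠ 0 := by exact_mod_cast hd.ne'
  have h1 : (Module.finrank ℝ E : ℝ≥0∞) ≠ ⊤ := ENNReal.natCast_ne_top _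
  rw [ENNReal.mul_inv (Or.inl h0) (Or.inl h1), mul_mul_mul_comm, ENNReal.inv_mul_cancel h0 h1,
    one_mul]

theorem unif_prob (hd : 0 < Module.finrank ℝ E) :
    IsProbabilityMeasure
      (((volume : Measure E).toSphere univ)⁻¹ • (volume : Measure E).toSphere) := by
  have : Nontrivial E := Module.nontrivial_of_finrank_pos hd
  constructor
  rw [Measure.smul_apply, smul_eq_mul, ENNReal.inv_mul_cancel]
  · exact Measure.measure_univ_ne_zero.2 (Measure.toSphere_ne_zero _)
  · exact measure_ne_top _ _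

theorem sph_prob (hd : 0 < Module.finrank ℝ E) : IsProbabilityMeasure (sph E) := by
  have := unif_prob hd
  exact Measure.isProbabilityMeasure_map measurable_subtype_coe.aemeasurable

theorem sph_ae : ∀ᵐ s ∂(sph E), ‖s‖ = 1 := by
  rw [sph, ae_map_iff measurable_subtype_coe.aemeasurable
    (isClosed_eq continuous_norm continuous_const).measurableSet]
  exact Filter.Eventually.of_forall fun s => by simp

theorem sph_cap (hd : 0 < Module.finrank ℝ E) (c : E) {ρ : ℝ} (h0 : 0 < ρ) (h1 : ρ ≤ 1) :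
    sph E (closedBall c ρ) ≤
      ENNReal.ofReal (2 * 3 ^ Module.finrank ℝ E * ρ ^ (Module.finrank ℝ E - 1)) := by
  rw [sph_apply hd measurableSet_closedBall]
  rcases (closedBall c ρ ∩ sphere (0 : E) 1).eq_empty_or_nonempty with h | ⟨p, hp1, hp2⟩
  · simp [h]
  have hp : ‖p‖ = 1 := by simpa using hp2
  set m := ⌊1 / ρ⌋₊ with hm
  have hsub : Ioo (0 : ℝ) 1 • (closedBall c ρ ∩ sphere (0 : E) 1) ⊆
      ⋃ i ∈ Finset.range (m + 1), closedBall ((i * ρ) • p) (3 * ρ) := by
    rintro _ ⟨t, ht, x, ⟨hx1, hx2⟩, rfl⟩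
    simp only [mem_iUnion]
    refine ⟨⌊t / ρ⌋₊, ?_, ?_⟩
    · rw [Finset.mem_range, Nat.lt_succ_iff]
      exact Nat.floor_mono (by gcongr; exact ht.2.le)
    · have a1 : (⌊t / ρ⌋₊ : ℝ) ≤ t / ρ := Nat.floor_le (div_nonneg ht.1.le h0.le)
      have a2 : t / ρ < ⌊t / ρ⌋₊ + 1 := Nat.lt_floor_add_one _
      rw [le_div_iff₀ h0] at a1
      rw [div_lt_iff₀ h0] at a2
      have a3 : ‖x - p‖ ≤ 2 * ρ := by
        rw [← dist_eq_norm]
        have := dist_triangle_right x p c
        rw [mem_closedBall] at hx1 hp1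
        linarith
      rw [mem_closedBall, dist_eq_norm]
      have e : t • x - (⌊t / ρ⌋₊ * ρ) • p = t • (x - p) + (t - ⌊t / ρ⌋₊ * ρ) • p := by
        rw [smul_sub, sub_smul]; abel
      change ‖t • x - (⌊t / ρ⌋₊ * ρ) • p‖ ≤ _
      rw [e]
      refine (norm_add_le _ _).trans ?_
      rw [norm_smul, norm_smul, hp, Real.norm_of_nonneg ht.1.le,
        Real.norm_of_nonneg (by linarith)]
      have : t * ‖x - p‖ ≤ 1 * (2 * ρ) := by gcongr; exact ht.2.le
      linarith
  have hb0 : volume (ball (0 : E) 1) ≠ 0 := (measure_ball_pos _ _ one_pos).ne'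
  have hb1 : volume (ball (0 : E) 1) ≠ ⊤ := measure_ball_lt_top.ne
  calc _ ≤ (volume (ball (0 : E) 1))⁻¹ * ∑ i ∈ Finset.range (m + 1),
        volume (closedBall ((i * ρ) • p) (3 * ρ)) := by
        gcongr
        exact (measure_mono hsub).trans (measure_biUnion_finset_le _ _)
    _ = ENNReal.ofReal ((m + 1) * (3 * ρ) ^ Module.finrank ℝ E) := by
        simp_rw [Measure.addHaar_closedBall _ _ (by positivity : 0 ≤ 3 * ρ)]
        rw [Finset.sum_const, Finset.card_range, nsmul_eq_mul, ← mul_assoc (((m + 1 : ℕ) : ℝ≥0∞)),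
          mul_comm, mul_assoc, ENNReal.mul_inv_cancel hb0 hb1, mul_one,
          ENNReal.ofReal_mul (by positivity), ← Nat.cast_succ, ENNReal.ofReal_natCast]
    _ ≤ _ := by
        apply ENNReal.ofReal_le_ofReal
        have a1 : (m : ℝ) ≤ 1 / ρ := Nat.floor_le (by positivity)
        rw [le_div_iff₀ h0] at a1
        obtain ⟨e, he⟩ : ∃ e, Module.finrank ℝ E = e + 1 := ⟨_, (Nat.succ_pred_eq_of_pos hd).symm⟩
        rw [he, Nat.add_sub_cancel, mul_pow, pow_succ ρ]
        calc ((m : ℝ) + 1) * (3 ^ (e + 1) * (ρ ^ e * ρ))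
            = (m * ρ + ρ) * 3 ^ (e + 1) * ρ ^ e := by ring
          _ ≤ _ := by gcongr; linarith

omit [FiniteDimensional ℝ E] [MeasurableSpace E] [BorelSpace E] in
theorem dist_le_of_arccos {a s : E} (ha : ‖a‖ = 1) (hs : ‖s‖ = 1) {ε : ℝ}
    (h : Real.arccos ⟪a, s⟫ ≤ ε) : ‖s - a‖ ≤ ε := by
  have h1 : |⟪a, s⟫| ≤ 1 := by simpa [ha, hs] using abs_real_inner_le_norm a s
  have h2 := Real.cos_arccos (abs_le.1 h1).1 (abs_le.1 h1).2
  have h3 := Real.one_sub_sq_div_two_le_cos (x := Real.arccos ⟪a, s⟫)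
  have h4 := Real.arccos_nonneg ⟪a, s⟫
  have h5 : ‖s - a‖ ^ 2 ≤ ε ^ 2 := by
    rw [norm_sub_sq_real, ha, hs, real_inner_comm]
    nlinarith
  exact abs_le_of_sq_le_sq' h5 (h4.trans h) |>.2

omit [FiniteDimensional ℝ E] in
theorem measurableSet_near_angle (a : E) (ε : ℝ) :
    MeasurableSet {s : E | Real.arccos ⟪a, s⟫ ≤ ε} :=
  (isClosed_le (Real.continuous_arccos.comp (by fun_prop)) continuous_const).measurableSet

theorem frost_terminal {α : ℕ} (hα : α + 1 ≤ Module.finrank ℝ E) {a : E} (ha : ‖a‖ = 1) {ε : ℝ}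
    (h0 : 0 < ε) (h1 : ε ≤ 1) :
    Frost ((sph E).withDensity ({s : E | Real.arccos ⟪a, s⟫ ≤ ε}.indicator 1))
      (ENNReal.ofReal (2 * 3 ^ Module.finrank ℝ E * ε ^ (Module.finrank ℝ E - 1 - α))) α := by
  intro c ρ hρ
  have hd : 0 < Module.finrank ℝ E := by omega
  rw [withDensity_indicator_one (measurableSet_near_angle a ε),
    Measure.restrict_apply measurableSet_closedBall, ← ENNReal.ofReal_mul (by positivity)]
  have e : Module.finrank ℝ E - 1 = (Module.finrank ℝ E - 1 - α) + α := by omega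
  rcases le_total ρ ε with h | h
  · refine (measure_mono inter_subset_left).trans ((sph_cap hd c hρ (h.trans h1)).trans ?_)
    apply ENNReal.ofReal_le_ofReal
    conv_lhs => rw [e, pow_add]
    rw [← mul_assoc]
    gcongr
  · refine le_trans (measure_mono_ae ?_) ((sph_cap hd a h0 h1).trans ?_)
    · filter_upwards [sph_ae (E := E)] with s hs h2
      exact mem_closedBall_iff_norm.2 (dist_le_of_arccos ha hs h2.2)
    · apply ENNReal.ofReal_le_ofReal
      conv_lhs => rw [e, pow_add]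
      rw [← mul_assoc]
      gcongr

theorem sph_invariant (hd : 0 < Module.finrank ℝ E) (R : E ≃ₗᵢ[ℝ] E) :
    MeasurePreserving R (sph E) (sph E) := by
  have hR : Measurable R := R.continuous.measurable
  refine ⟨hR, Measure.ext fun A hA => ?_⟩
  rw [Measure.map_apply hR hA, sph_apply hd hA, sph_apply hd (hR hA),
    ← R.measurePreserving.measure_preimage_emb R.toHomeomorph.measurableEmbedding
      (Ioo (0 : ℝ) 1 • (A ∩ sphere (0 : E) 1))]
  congr 2
  ext x
  constructor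
  · rintro ⟨t, ht, y, ⟨hy1, hy2⟩, rfl⟩
    exact ⟨t, ht, R y, ⟨hy1, by simpa using hy2⟩, by simp⟩
  · rintro ⟨t, ht, y, ⟨hy1, hy2⟩, h⟩
    refine ⟨t, ht, R.symm y, ⟨by simpa using hy1, by simpa using hy2⟩, ?_⟩
    apply R.injective
    simpa using h

theorem sph_inner_sq (hd : 0 < Module.finrank ℝ E) {e : E} (he : ‖e‖ = 1) :
    ∫⁻ s, ENNReal.ofReal (⟪e, s⟫ ^ 2) ∂(sph E) = (Module.finrank ℝ E : ℝ≥0∞)⁻¹ := by
  have := sph_prob hd
  have hm : ∀ e : E, Measurable fun s : E => ENNReal.ofReal (⟪e, s⟫ ^ 2) := fun e => by fun_prop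
  have h1 : ∀ f : E, ‖f‖ = 1 → ∫⁻ s, ENNReal.ofReal (⟪f, s⟫ ^ 2) ∂(sph E) =
      ∫⁻ s, ENNReal.ofReal (⟪e, s⟫ ^ 2) ∂(sph E) := by
    intro f hf
    have h2 := Submodule.reflection_sub (v := e) (w := f) (he.trans hf.symm)
    rw [← (sph_invariant hd (ℝ ∙ (e - f))ᗮ.reflection).lintegral_comp (hm f)]
    refine lintegral_congr fun s => ?_
    rw [← ((ℝ ∙ (e - f))ᗮ.reflection).inner_map_map e s, h2]
  let b := stdOrthonormalBasis ℝ E
  have h3 : ∑ i, ∫⁻ s, ENNReal.ofReal (⟪b i, s⟫ ^ 2) ∂(sph E) = 1 := by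
    rw [← lintegral_finsetSum _ fun i _ => hm (b i)]
    have : ∀ᵐ s ∂(sph E), ∑ i, ENNReal.ofReal (⟪b i, s⟫ ^ 2) = 1 := by
      filter_upwards [sph_ae (E := E)] with s hs
      rw [← ENNReal.ofReal_sum_of_nonneg fun _ _ => sq_nonneg _, b.sum_sq_inner_right, hs]
      simp
    rw [lintegral_congr_ae this]
    simp
  simp_rw [h1 _ (b.orthonormal.1 _)] at h3
  rw [Finset.sum_const, Finset.card_univ, Fintype.card_fin, nsmul_eq_mul] at h3
  exact ENNReal.eq_inv_of_mul_eq_one_left (by rwa [mul_comm])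

theorem sph_proj (hd : 0 < Module.finrank ℝ E) (V : Submodule ℝ E)
    (hV : 4 * Module.finrank ℝ V ≤ Module.finrank ℝ E) :
    sph E {s | 99 / 100 ≤ ‖V.starProjection s‖ ^ 2} ≤ ENNReal.ofReal (25 / 99) := by
  let b := stdOrthonormalBasis ℝ V
  have hm : ∀ e : E, Measurable fun s : E => ENNReal.ofReal (⟪e, s⟫ ^ 2) := fun e => by fun_prop
  have h1 : ∀ s, ENNReal.ofReal (‖V.starProjection s‖ ^ 2) =
      ∑ i, ENNReal.ofReal (⟪(b i : E), s⟫ ^ 2) := by
    intro s
    rw [← ENNReal.ofReal_sum_of_nonneg fun _ _ => sq_nonneg _]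
    have := b.sum_sq_inner_right ⟨V.starProjection s, V.starProjection_apply_mem s⟩
    rw [Submodule.coe_norm] at this
    rw [← this]
    congr 1
    refine Finset.sum_congr rfl fun i _ => ?_
    change ⟪(b i : E), V.starProjection s⟫ ^ 2 = _
    rw [← Submodule.inner_starProjection_left_eq_right,
      Submodule.starProjection_eq_self_iff.2 (b i).2]
  have h2 : ∫⁻ s, ENNReal.ofReal (‖V.starProjection s‖ ^ 2) ∂(sph E) ≤ ENNReal.ofReal (1 / 4) := by
    simp_rw [h1]
    rw [lintegral_finsetSum _ fun i _ => hm _]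
    simp_rw [fun i => sph_inner_sq hd (e := (b i : E)) (b.orthonormal.1 i)]
    rw [Finset.sum_const, Finset.card_univ, Fintype.card_fin, nsmul_eq_mul,
      ← ENNReal.ofReal_natCast, ← ENNReal.ofReal_natCast (Module.finrank ℝ E),
      ← ENNReal.ofReal_inv_of_pos (by exact_mod_cast hd), ← ENNReal.ofReal_mul (by positivity)]
    apply ENNReal.ofReal_le_ofReal
    have a1 : (4 : ℝ) * Module.finrank ℝ V ≤ Module.finrank ℝ E := by exact_mod_cast hV
    have a2 : (0 : ℝ) < Module.finrank ℝ E := by exact_mod_cast hd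
    rw [← div_eq_mul_inv, div_le_iff₀ a2]
    linarith
  have h3 := mul_meas_ge_le_lintegral₀ (μ := sph E)
    (f := fun s => ENNReal.ofReal (‖V.starProjection s‖ ^ 2)) (by fun_prop)
    (ENNReal.ofReal (99 / 100))
  have e : {s | 99 / 100 ≤ ‖V.starProjection s‖ ^ 2} =
      {s | ENNReal.ofReal (99 / 100) ≤ ENNReal.ofReal (‖V.starProjection s‖ ^ 2)} := by
    ext s; simp only [mem_ofPred_eq]; rw [ENNReal.ofReal_le_ofReal_iff (by positivity)]
  rw [e, ← ENNReal.mul_le_mul_iff_right (a := ENNReal.ofReal (99 / 100)) (by simp)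
    ENNReal.ofReal_ne_top, ← ENNReal.ofReal_mul (by norm_num)]
  refine h3.trans (h2.trans (le_of_eq ?_))
  norm_num

end Vale.Agent.P309
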