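import Vale.Agent.P309.Pay
import Vale.Agent.P309.Sphere
import Vale.Agent.P309.Defs

/-! The two upper bounds on the success probability. -/

namespace Vale.Agent.P309

open MeasureTheory ProbabilityTheory Set Metric
open scoped ENNReal NNReal RealInnerProductSpace

section
variable {E : Type*} [NormedAddCommGroup E] [InnerProductSpace ℝ E] [FiniteDimensional ℝ E]
  [MeasurableSpace E] [BorelSpace E]

theorem reflect_bound (hd : 0 < Module.finrank ℝ E) {T : ℕ} (hT : 4 * T ≤ Module.finrank ℝ E)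
    (X : Fin T → E) {a : (Fin T → ℝ) → E} (ha : ∀ y, ‖a y‖ = 1) {ε : ℝ} (hε : ε ≤ 1 / 10)
    (hG : MeasurableSet {s : E | Real.arccos ⟪a (lab X s), s⟫ ≤ ε}) :
    sph E {s : E | Real.arccos ⟪a (lab X s), s⟫ ≤ ε} ≤ ENNReal.ofReal (62 / 99) := by
  have := sph_prob hd
  set G := {s : E | Real.arccos ⟪a (lab X s), s⟫ ≤ ε} with hGdef
  set V := Submodule.span ℝ (range X) with hV
  have hk : Module.finrank ℝ V ≤ T := (finrank_range_le_card (R := ℝ) X).trans (by simp)
  have hR := sph_invariant hd V.reflection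
  have hlab : ∀ s, lab X (V.reflection s) = lab X s := by
    intro s
    funext i
    have hX : X i ∈ V := Submodule.subset_span (mem_range_self i)
    simp only [lab]
    conv_lhs => rw [← Submodule.reflection_mem_subspace_eq_self hX]
    rw [LinearIsometryEquiv.inner_map_map]
  have h1 : sph E (V.reflection ⁻¹' G) = sph E G := hR.measure_preimage hG.nullMeasurableSet
  have h2 := measure_union_add_inter (μ := sph E) G (hR.measurable hG)
  have h3 : sph E (G ∩ V.reflection ⁻¹' G) ≤ ENNReal.ofReal (25 / 99) := by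
    refine le_trans (measure_mono_ae ?_) (sph_proj hd V (by omega))
    filter_upwards [sph_ae (E := E)] with s hs h
    have b1 := dist_le_of_arccos (ha _) hs h.1
    have b2 := dist_le_of_arccos (ha _) ((V.reflection.norm_map s).trans hs) h.2
    rw [hlab] at b2
    have b3 : ‖s - V.reflection s‖ ≤ 2 * ε := by
      have := norm_sub_le_norm_sub_add_norm_sub s (a (lab X s)) (V.reflection s)
      rw [norm_sub_rev (a _)] at this
      linarith
    have e : s - V.reflection s = (2 : ℝ) • (s - V.starProjection s) := by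
      rw [Submodule.reflection_apply, two_smul, two_smul]; abel
    rw [e, norm_smul, Real.norm_ofNat] at b3
    have b4 := V.norm_sq_eq_add_norm_sq_starProjection s
    rw [Submodule.starProjection_orthogonal_val, hs] at b4
    change 99 / 100 ≤ ‖V.starProjection s‖ ^ 2
    have b5 : ‖s - V.starProjection s‖ ^ 2 ≤ (1 / 10) ^ 2 := by gcongr; linarith
    linarith
  rw [h1] at h2
  have h4 : 2 * sph E G ≤ 2 * ENNReal.ofReal (62 / 99) := by
    rw [two_mul, ← h2]
    refine (add_le_add prob_le_one h3).trans (le_of_eq ?_)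
    rw [← ENNReal.ofReal_one, ← ENNReal.ofReal_add (by norm_num) (by norm_num),
      ← ENNReal.ofReal_ofNat 2, ← ENNReal.ofReal_mul (by norm_num)]
    norm_num
  exact (ENNReal.mul_le_mul_iff_right two_ne_zero ENNReal.ofNat_ne_top).1 h4

end

variable {d N : ℕ} {Ω : Type} [MeasurableSpace Ω] (L : Learner d N Ω)

theorem measurable_run (n t : ℕ) :
    Measurable fun p : Ω × Fin N × (Fin n → Sp d × ℝ) => L.run p.1 n t p.2.1 p.2.2 := by
  induction n generalizing t with
  | zero => exact (L.measurable_out t).comp (measurable_fst.prodMk measurable_snd.fst)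
  | succ n ih =>
    have hz : Measurable fun p : Ω × Fin N × (Fin (n + 1) → Sp d × ℝ) =>
        (p.1, p.2.1, p.2.2 0) := by fun_prop
    have htail : Measurable fun p : Ω × Fin N × (Fin (n + 1) → Sp d × ℝ) => Fin.tail p.2.2 :=
      measurable_pi_iff.2 fun i => (measurable_pi_apply _).comp measurable_snd.snd
    exact Measurable.ite ((L.measurable_stop t).comp hz (measurableSet_singleton true))
      ((L.measurable_out (t + 1)).comp (measurable_fst.prodMk ((L.measurable_step t).comp hz)))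
      ((ih (t + 1)).comp (measurable_fst.prodMk (((L.measurable_step t).comp hz).prodMk htail)))

theorem measurableSet_good (n t : ℕ) (ε : ℝ) :
    MeasurableSet {p : (Ω × Fin N) × Sp d × (Fin n → Sp d) | Real.arccos
      ⟪(L.run p.1.1 n t p.1.2 (fun i => (p.2.2 i, ⟪p.2.2 i, p.2.1⟫)) : Sp d), p.2.1⟫ ≤ ε} := by
  have h1 : Measurable fun p : (Ω × Fin N) × Sp d × (Fin n → Sp d) =>
      (p.1.1, p.1.2, fun i => (p.2.2 i, ⟪p.2.2 i, p.2.1⟫)) := by fun_prop
  exact measurableSet_le (Real.continuous_arccos.measurable.comp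
    ((measurable_subtype_coe.comp ((measurable_run L n t).comp h1)).inner measurable_snd.fst))
    measurable_const

theorem measurableSet_good' (ω : Ω) (w : Fin N) (n t : ℕ) (ε : ℝ) :
    MeasurableSet {p : Sp d × (Fin n → Sp d) | Real.arccos
      ⟪(L.run ω n t w (fun i => (p.2 i, ⟪p.2 i, p.1⟫)) : Sp d), p.1⟫ ≤ ε} :=
  measurable_prodMk_left (x := (ω, w)) (measurableSet_good L n t ε)

theorem run_pay (ω : Ω) (ε : ℝ) (s : Sp d) (n t : ℕ) (w : Fin N) :
    (Measure.pi fun _ : Fin n => stdGaussian (Sp d))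
      {X | Real.arccos ⟪(L.run ω n t w (fun i => (X i, ⟪X i, s⟫)) : Sp d), s⟫ ≤ ε} =
    pay (fun t p => L.step t (ω, p)) (fun t p => L.stop t (ω, p))
      (fun t w => {s : Sp d | Real.arccos ⟪(L.out t (ω, w) : Sp d), s⟫ ≤ ε}.indicator 1)
      n t w s := by
  have hm : ∀ n t w, MeasurableSet {X : Fin n → Sp d |
      Real.arccos ⟪(L.run ω n t w (fun i => (X i, ⟪X i, s⟫)) : Sp d), s⟫ ≤ ε} := fun n t w =>
    (measurable_prodMk_left (x := s)) (measurable_prodMk_left (x := (ω, w))
      (measurableSet_good L n t ε))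
  induction n generalizing t w with
  | zero =>
    simp only [Learner.run, pay]
    by_cases h : Real.arccos ⟪(L.out t (ω, w) : Sp d), s⟫ ≤ ε <;> simp [h]
  | succ n ih =>
    rw [← lintegral_indicator_one (hm _ _ _),
      lintegral_pi_succ _ (measurable_one.indicator (hm _ _ _)), pay]
    refine lintegral_congr fun x => ?_
    have e : ∀ X : Fin n → Sp d, (Fin.tail fun i : Fin (n + 1) =>
        ((Fin.cons x X : Fin (n + 1) → Sp d) i,
          ⟪(Fin.cons x X : Fin (n + 1) → Sp d) i, s⟫)) = fun i => (X i, ⟪X i, s⟫) := by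
      intro X; funext i; simp [Fin.tail]
    by_cases h : L.stop t (ω, w, x, ⟪x, s⟫) = true
    · simp only [indicator, mem_ofPred_eq, Learner.run, Fin.cons_zero, if_pos h, Pi.one_apply]
      simp
    · rw [if_neg h, ← ih, ← lintegral_indicator_one (hm _ _ _)]
      simp only [indicator, mem_ofPred_eq, Learner.run, Fin.cons_zero, if_neg h, Pi.one_apply, e]

theorem success_le (hd : 0 < d) (P : Measure Ω) [IsProbabilityMeasure P] (T : ℕ) (ε : ℝ)
    {B : ℝ≥0∞} (h : ∀ ω w, ((sph (Sp d)).prod (Measure.pi fun _ : Fin T => stdGaussian (Sp d)))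
      {p | Real.arccos ⟪(L.run ω T 0 w (fun i => (p.2 i, ⟪p.2 i, p.1⟫)) : Sp d), p.1⟫ ≤ ε} ≤ B) :
    L.success P T ε ≤ B := by
  have := unif_prob (E := Sp d) (by simpa using hd)
  have : IsProbabilityMeasure (unifSphere d) := this
  have hf : Measurable fun p : Ω × Sph d × (Fin T → Sp d) =>
      ((p.1, L.init p.1), (p.2.1 : Sp d), p.2.2) :=
    (measurable_fst.prodMk (L.measurable_init.comp measurable_fst)).prodMk
      ((measurable_subtype_coe.comp measurable_snd.fst).prodMk measurable_snd.snd)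
  refine le_trans (le_of_eq (Measure.prod_apply (hf (measurableSet_good L T 0 ε)))) ?_
  refine (lintegral_mono (g := fun _ => B) fun ω => ?_).trans (by simp)
  refine le_trans (le_of_eq ?_) (h ω (L.init ω))
  have e : (sph (Sp d)).prod (Measure.pi fun _ : Fin T => stdGaussian (Sp d)) =
      ((unifSphere d).prod (Measure.pi fun _ : Fin T => stdGaussian (Sp d))).map
        (Prod.map Subtype.val id) := by
    rw [← Measure.map_prod_map _ _ measurable_subtype_coe measurable_id, Measure.map_id]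
    rfl
  rw [e, Measure.map_apply (measurable_subtype_coe.prodMap measurable_id)
    (measurableSet_good' L ω _ T 0 ε)]
  rfl

theorem success_short (hd : 0 < d) (P : Measure Ω) [IsProbabilityMeasure P] {T : ℕ} {ε : ℝ}
    (hT : 4 * T ≤ d) (hε : ε ≤ 1 / 10) : L.success P T ε ≤ ENNReal.ofReal (62 / 99) := by
  have hd' : 0 < Module.finrank ℝ (Sp d) := by simpa using hd
  have := sph_prob hd'
  refine success_le L hd P T ε fun ω w => ?_
  have hm := measurableSet_good' L ω w T 0 ε
  rw [Measure.prod_apply_symm hm]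
  refine (lintegral_mono (g := fun _ => ENNReal.ofReal (62 / 99)) fun X => ?_).trans (by simp)
  exact reflect_bound hd' (by simpa using hT) X
    (a := fun y => (L.run ω T 0 w (fun i => (X i, y i)) : Sp d)) (fun y => by simp) hε
    (measurable_prodMk_right hm)

theorem success_long {n M : ℕ} (hn : 0 < n) (h1 : 16 * n ≤ d) (h2 : d ≤ 32 * n) (hN : N ≤ 2 ^ M)
    (P : Measure Ω) [IsProbabilityMeasure P] {T b : ℕ} {ε : ℝ} (h0 : 0 < ε) (hε : ε ≤ 1)
    (hT : T ≤ b * (2 * n)) :
    L.success P T ε ≤ ENNReal.ofReal (2 ^ ((M / n + 26 * n) * b) * (2 * 3 ^ d * ε ^ (9 * n))) := by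
  have hd : 0 < d := by omega
  have hd' : 0 < Module.finrank ℝ (Sp d) := by simpa using hd
  have := sph_prob hd'
  refine success_le L hd P T ε fun ω w => ?_
  have hm := measurableSet_good' L ω w T 0 ε
  rw [Measure.prod_apply hm]
  have key := pay_frost (E := Sp d) (μ := sph (Sp d)) hn hd' (by simpa using h2) hN
    (step := fun t p => L.step t (ω, p)) (stop := fun t p => L.stop t (ω, p))
    (o := fun t w => {s : Sp d | Real.arccos ⟪(L.out t (ω, w) : Sp d), s⟫ ≤ ε}.indicator 1)
    (fun t => (L.measurable_step t).comp measurable_prodMk_left)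
    (fun t => (L.measurable_stop t).comp measurable_prodMk_left)
    (fun t w => measurable_one.indicator (measurableSet_near_angle _ _))
    (fun t w s => indicator_le_self' (fun _ _ => zero_le_one) s) (by
      simp only [ne_eq, ENNReal.ofReal_eq_zero, not_le]; positivity) ENNReal.ofReal_ne_top
    (fun t w => frost_terminal (by simp; omega) (by simp) h0 hε) b T hT 0 w 0 1 one_pos
  rw [withDensity_apply _ measurableSet_closedBall, Measure.restrict_eq_self_of_ae_mem (by
    filter_upwards [sph_ae (E := Sp d)] with s hs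
    simp [hs])] at key
  simp_rw [← run_pay] at key
  refine key.trans ?_
  rw [one_pow, ENNReal.ofReal_one, mul_one,
    ENNReal.ofReal_mul (p := 2 ^ ((M / n + 26 * n) * b)) (by positivity),
    ENNReal.ofReal_pow (by norm_num), ENNReal.ofReal_ofNat]
  simp only [finrank_euclideanSpace, Fintype.card_fin]
  gcongr _ * ENNReal.ofReal (_ * ?_)
  exact pow_le_pow_of_le_one h0.le hε (by omega)

theorem lower_bound {M : ℕ} (hd : 16 ≤ d) (hN : N ≤ 2 ^ M) (P : Measure Ω) [IsProbabilityMeasure P]
    {T : ℕ} {ε : ℝ} (h0 : 0 < ε) (hε : ε ≤ 1 / 10) (h : 2 / 3 ≤ L.success P T ε) :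
    1 / 3000 * d * Real.log (1 / ε) ≤ (1 + M / (d : ℝ) ^ 2) * T := by
  have e23 : (2 / 3 : ℝ≥0∞) = ENNReal.ofReal (2 / 3) := by
    rw [ENNReal.ofReal_div_of_pos (by norm_num)]; simp
  rw [e23] at h
  have hT : d < 4 * T := by
    by_contra hc
    have := h.trans (success_short L (by omega) P (not_lt.1 hc) hε)
    rw [ENNReal.ofReal_le_ofReal_iff (by norm_num)] at this
    norm_num at this
  obtain ⟨n, hn, h1, h2⟩ : ∃ n, 0 < n ∧ 16 * n ≤ d ∧ d ≤ 32 * n := ⟨d / 16, by omega⟩
  set b := T / (2 * n) + 1 with hb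
  have hb1 : T ≤ b * (2 * n) := by
    have := Nat.div_add_mod T (2 * n)
    have := Nat.mod_lt T (by omega : 0 < 2 * n)
    rw [hb]; nlinarith
  have hb2 : 4 * n * b ≤ 3 * T := by
    have := Nat.div_mul_le_self T (2 * n)
    rw [hb]; nlinarith
  have key := h.trans (success_long L hn h1 h2 hN P h0 (by linarith) hb1)
  rw [ENNReal.ofReal_le_ofReal_iff (by positivity)] at key
  set K := (M / n + 26 * n) * b with hK
  have a1 : (1 / ε) ^ (9 * n) ≤ Real.exp (K + (2 + 2 * d)) := by
    have c1 : (2 : ℝ) ≤ Real.exp 1 := by linarith [Real.add_one_le_exp (1 : ℝ)]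
    have c2 : (2 : ℝ) ^ (K + (2 + 2 * d)) ≤ Real.exp (K + (2 + 2 * d)) := by
      rw [show (K + (2 + 2 * d) : ℝ) = (K + (2 + 2 * d) : ℕ) * 1 by push_cast; ring,
        Real.exp_nat_mul]
      gcongr
    refine le_trans ?_ c2
    have c3 : (3 : ℝ) ^ d ≤ 4 ^ d := by gcongr; norm_num
    have c4 : (0 : ℝ) < ε ^ (9 * n) := by positivity
    rw [one_div, inv_pow, inv_le_iff_one_le_mul₀ c4, pow_add, pow_add, pow_mul 2 2 d]
    have c5 : (2 : ℝ) ^ K * (2 * 3 ^ d * ε ^ (9 * n)) ≤ 2 ^ K * (2 * 4 ^ d * ε ^ (9 * n)) := by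
      gcongr
    have c6 : (0 : ℝ) ≤ 2 ^ K * (4 ^ d * ε ^ (9 * n)) := by positivity
    rw [show (2 : ℝ) ^ 2 = 4 by norm_num]
    linarith
  have a2 : 9 * n * Real.log (1 / ε) ≤ K + (2 + 2 * d) := by
    have := Real.log_le_log (by positivity) a1
    rwa [Real.log_pow, Real.log_exp, Nat.cast_mul, Nat.cast_ofNat] at this
  have hn' : (0 : ℝ) < n := by exact_mod_cast hn
  have hd' : (0 : ℝ) < d := by exact_mod_cast (by omega : 0 < d)
  have h2' : (d : ℝ) ≤ 32 * n := by exact_mod_cast h2
  have hT' : (d : ℝ) ≤ 4 * T := by exact_mod_cast hT.le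
  have hT1 : (1 : ℝ) ≤ T := by exact_mod_cast (by omega : 1 ≤ T)
  have a3 : (K : ℝ) ≤ (768 * (M / (d : ℝ) ^ 2) + 20) * T := by
    have c1 : ((M / n : ℕ) : ℝ) ≤ M / n := Nat.cast_div_le
    have c2 : (b : ℝ) ≤ 3 * T / (4 * n) := by
      rw [le_div_iff₀ (by positivity), mul_comm]; exact_mod_cast hb2
    have c3 : (M : ℝ) / n ^ 2 ≤ 1024 * (M / (d : ℝ) ^ 2) := by
      rw [← mul_div_assoc, div_le_div_iff₀ (by positivity) (by positivity)]
      have : (d : ℝ) ^ 2 ≤ (32 * n) ^ 2 := by gcongr
      calc (M : ℝ) * d ^ 2 ≤ M * (32 * n) ^ 2 := by gcongr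
        _ = _ := by ring
    calc (K : ℝ) = (((M / n : ℕ) : ℝ) + 26 * n) * b := by rw [hK]; push_cast; ring
      _ ≤ (M / n + 26 * n) * (3 * T / (4 * n)) := by gcongr
      _ = (3 / 4 * (M / n ^ 2) + 39 / 2) * T := by field_simp; ring
      _ ≤ _ := by gcongr ?_ * _; linarith
  have a4 : 0 ≤ Real.log (1 / ε) := Real.log_nonneg (by rw [le_div_iff₀ h0]; linarith)
  have a5 : (0 : ℝ) ≤ M / (d : ℝ) ^ 2 * T := by positivity
  have a6 : d * Real.log (1 / ε) ≤ 32 * n * Real.log (1 / ε) := by gcongr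
  nlinarith

end Vale.Agent.P309
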