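import Vale.Agent.P309.Gauss
import Vale.Agent.P309.Cover

/-! The moment bound for the smoothed plane transform. -/

namespace Vale.Agent.P309

open MeasureTheory ProbabilityTheory Set Metric
open scoped ENNReal NNReal RealInnerProductSpace

variable {E : Type*} [NormedAddCommGroup E] [InnerProductSpace ℝ E] [FiniteDimensional ℝ E]
  [MeasurableSpace E] [BorelSpace E]

theorem measurableSet_near (k : ℕ) (s₁ : E) (δ : ℝ) :
    MeasurableSet {p : (Fin k → E) × E | ∀ i, |⟪p.1 i, p.2 - s₁⟫| ≤ δ} := by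
  simp only [ofPred_forall]
  exact MeasurableSet.iInter fun i =>
    measurableSet_le (f := fun p : (Fin k → E) × E => |⟪p.1 i, p.2 - s₁⟫|) (by fun_prop)
      measurable_const

theorem moment {ν : Measure E} [IsFiniteMeasure ν] {Λ : ℝ≥0∞} (hΛ : Λ ≠ ⊤) {k β q : ℕ}
    (h : Frost ν Λ (k + β)) (hβ : 3 * q + 1 ≤ β) (s₁ : E) {R δ : ℝ} (hR : 0 < R) (hδ : 0 < δ)
    (hν : ∀ᵐ s ∂ν, ‖s - s₁‖ ≤ R) (m : ℕ) :
    ∀ (V : Submodule ℝ E) (B : Set E), Module.finrank ℝ V + m ≤ q → MeasurableSet B →
      (∀ x w, w ∈ Vᗮ → (x + w ∈ B ↔ x ∈ B)) →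
      ∫⁻ X in Set.pi univ (fun _ : Fin k => B), (ν {s | ∀ i, |⟪X i, s - s₁⟫| ≤ δ}) ^ m
        ∂(Measure.pi fun _ : Fin k => stdGaussian E) ≤
      stdGaussian E B ^ k *
        (Λ * ENNReal.ofReal (2 ^ (2 * k + β + 1) * R ^ β) * ENNReal.ofReal (δ ^ k)) ^ m := by
  set K := Λ * ENNReal.ofReal (2 ^ (2 * k + β + 1) * R ^ β) * ENNReal.ofReal (δ ^ k) with hK
  have hKtop : K ≠ ⊤ :=
    ENNReal.mul_ne_top (ENNReal.mul_ne_top hΛ ENNReal.ofReal_ne_top) ENNReal.ofReal_ne_top
  set P := Measure.pi fun _ : Fin k => stdGaussian E with hP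
  have hG : Measurable fun X : Fin k → E => ν {s | ∀ i, |⟪X i, s - s₁⟫| ≤ δ} :=
    measurable_measure_prodMk_left (measurableSet_near k s₁ δ)
  induction m with
  | zero =>
    intro V B _ hB _
    simp [hP, Measure.pi_pi]
  | succ m ih =>
    intro V B hV hB hinv
    have hpi : MeasurableSet (Set.pi univ (fun _ : Fin k => B)) :=
      MeasurableSet.univ_pi fun _ => hB
    have hC : ∀ s : E, MeasurableSet (B ∩ {x | |⟪x, s - s₁⟫| ≤ δ}) := fun s =>
      hB.inter (measurableSet_le (f := fun x : E => |⟪x, s - s₁⟫|) (by fun_prop) measurable_const)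
    let f : (Fin k → E) → E → ℝ≥0∞ := fun X s =>
      ((Set.pi univ (fun _ : Fin k => B)) ×ˢ univ ∩
        {p : (Fin k → E) × E | ∀ i, |⟪p.1 i, p.2 - s₁⟫| ≤ δ}).indicator
        (fun p => (ν {s | ∀ i, |⟪p.1 i, s - s₁⟫| ≤ δ}) ^ m) (X, s)
    have hf : Measurable (Function.uncurry f) :=
      ((hG.comp measurable_fst).pow_const m).indicator
        ((hpi.prod MeasurableSet.univ).inter (measurableSet_near k s₁ δ))
    have e1 : ∫⁻ X in Set.pi univ (fun _ : Fin k => B),
        (ν {s | ∀ i, |⟪X i, s - s₁⟫| ≤ δ}) ^ (m + 1) ∂P = ∫⁻ X, ∫⁻ s, f X s ∂ν ∂P := by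
      rw [← lintegral_indicator hpi]
      refine lintegral_congr fun X => ?_
      have hS : MeasurableSet {s : E | ∀ i, |⟪X i, s - s₁⟫| ≤ δ} :=
        measurable_prodMk_left (measurableSet_near k s₁ δ)
      by_cases hX : X ∈ Set.pi univ (fun _ : Fin k => B)
      · rw [indicator_of_mem hX, pow_succ, ← lintegral_indicator_const hS]
        refine lintegral_congr fun s => ?_
        by_cases hs : ∀ i, |⟪X i, s - s₁⟫| ≤ δ
        · simp only [f]
          rw [indicator_of_mem (by exact hs), indicator_of_mem (by exact ⟨⟨hX, mem_univ _⟩, hs⟩)]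
        · simp only [f]
          rw [indicator_of_notMem (by exact hs), indicator_of_notMem (fun h => hs h.2)]
      · rw [indicator_of_notMem hX]
        have : ∀ s, f X s = 0 := fun s => indicator_of_notMem (fun h => hX h.1.1) _
        simp [this]
    have e2 : ∀ s, ∫⁻ X, f X s ∂P =
        ∫⁻ X in Set.pi univ (fun _ : Fin k => B ∩ {x | |⟪x, s - s₁⟫| ≤ δ}),
          (ν {s | ∀ i, |⟪X i, s - s₁⟫| ≤ δ}) ^ m ∂P := by
      intro s
      rw [← lintegral_indicator (MeasurableSet.univ_pi fun _ => hC s)]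
      refine lintegral_congr fun X => ?_
      by_cases hX : X ∈ Set.pi univ (fun _ : Fin k => B ∩ {x | |⟪x, s - s₁⟫| ≤ δ})
      · simp only [f]
        rw [indicator_of_mem hX, indicator_of_mem
          (by exact ⟨⟨fun i hi => (hX i hi).1, mem_univ _⟩, fun i => (hX i (mem_univ _)).2⟩)]
      · simp only [f]
        rw [indicator_of_notMem hX, indicator_of_notMem
          (fun h => hX fun i hi => ⟨h.1.1 i hi, h.2 i⟩)]
    let φ : E → ℝ≥0∞ := fun s => if 0 < ‖(s - s₁) - V.starProjection (s - s₁)‖ then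
      min 1 (ENNReal.ofReal (δ / ‖(s - s₁) - V.starProjection (s - s₁)‖) ^ k) else 1
    have e3 : ∀ s, ∫⁻ X, f X s ∂P ≤ (stdGaussian E B ^ k * K ^ m) * φ s := by
      intro s
      rw [e2]
      refine (ih (V ⊔ ℝ ∙ (s - s₁)) _ ?_ (hC s) ?_).trans ?_
      · have a1 := Submodule.finrank_add_le_finrank_add_finrank V (ℝ ∙ (s - s₁))
        have a2 : Module.finrank ℝ (ℝ ∙ (s - s₁)) ≤ 1 := by
          simpa using finrank_span_le_card (R := ℝ) ({s - s₁} : Set E)
        omega
      · intro x w hw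
        have a1 : w ∈ Vᗮ := Submodule.orthogonal_le le_sup_left hw
        have a2 : ⟪w, s - s₁⟫ = 0 := Submodule.inner_left_of_mem_orthogonal
          (Submodule.mem_sup_right (Submodule.mem_span_singleton_self _)) hw
        simp only [mem_inter_iff, mem_ofPred_eq, hinv x w a1, inner_add_left, a2, add_zero]
      · rw [mul_right_comm]
        gcongr
        have a1 : stdGaussian E (B ∩ {x | |⟪x, s - s₁⟫| ≤ δ}) ^ k ≤ stdGaussian E B ^ k := by
          gcongr; exact inter_subset_left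
        simp only [φ]
        split_ifs with hD
        · rw [mul_min, mul_one, ← mul_pow]
          refine le_min a1 ?_
          gcongr
          exact anticonc V hB hinv _ _ hD
        · rwa [mul_one]
    rw [e1, lintegral_lintegral_swap hf.aemeasurable]
    refine (lintegral_mono e3).trans ?_
    rw [lintegral_const_mul' _ _ (ENNReal.mul_ne_top (ENNReal.pow_ne_top (measure_ne_top _ _))
      (ENNReal.pow_ne_top hKtop)), pow_succ, mul_assoc]
    gcongr
    refine weight_bound h hβ V (by omega) s₁ hR hδ hν φ ?_ ?_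
    · intro s; simp only [φ]; split_ifs
      · exact min_le_left _ _
      · exact le_rfl
    · intro s hs; simp only [φ]; rw [if_pos hs]; exact min_le_right _ _

end Vale.Agent.P309
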