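import Vale.Agent.P309.Block

/-! Value functions of deterministic learners. -/

namespace Vale.Agent.P309

open MeasureTheory ProbabilityTheory Set Metric
open scoped ENNReal NNReal RealInnerProductSpace

variable {E : Type*} [NormedAddCommGroup E] [InnerProductSpace ℝ E] [FiniteDimensional ℝ E]
  [MeasurableSpace E] [BorelSpace E] {N : ℕ}

noncomputable def pay (step : ℕ → Fin N × (E × ℝ) → Fin N) (stop : ℕ → Fin N × (E × ℝ) → Bool)
    (o : ℕ → Fin N → E → ℝ≥0∞) : ℕ → ℕ → Fin N → E → ℝ≥0∞
  | 0, t, w, s => o t w s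
  | n + 1, t, w, s => ∫⁻ x, (if stop t (w, x, ⟪x, s⟫) = true then
      o (t + 1) (step t (w, x, ⟪x, s⟫)) s
      else pay step stop o n (t + 1) (step t (w, x, ⟪x, s⟫)) s) ∂(stdGaussian E)

variable {step : ℕ → Fin N × (E × ℝ) → Fin N} {stop : ℕ → Fin N × (E × ℝ) → Bool}
  {o : ℕ → Fin N → E → ℝ≥0∞}

omit [BorelSpace E] [NormedAddCommGroup E] [InnerProductSpace ℝ E] [FiniteDimensional ℝ E] in
theorem measurable_sel {W Z : Type*} [MeasurableSpace W] [Countable W] [MeasurableSingletonClass W]
    [MeasurableSpace Z] {u : W → E → ℝ≥0∞} (hu : ∀ w, Measurable (u w)) {f : Z → W} {g : Z → E}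
    (hf : Measurable f) (hg : Measurable g) : Measurable fun z => u (f z) (g z) :=
  (measurable_from_prod_countable_right (f := fun p : W × E => u p.1 p.2) hu).comp (hf.prodMk hg)

theorem measurable_pay (h1 : ∀ t, Measurable (step t)) (h2 : ∀ t, Measurable (stop t))
    (ho : ∀ t w, Measurable (o t w)) (n t : ℕ) (w : Fin N) : Measurable (pay step stop o n t w) := by
  induction n generalizing t w with
  | zero => exact ho t w
  | succ n ih =>
    have hz : Measurable fun p : E × E => (w, p.2, ⟪p.2, p.1⟫) := by fun_prop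
    exact Measurable.lintegral_prod_right' (ν := stdGaussian E)
      (f := fun p : E × E => if stop t (w, p.2, ⟪p.2, p.1⟫) = true then
        o (t + 1) (step t (w, p.2, ⟪p.2, p.1⟫)) p.1
        else pay step stop o n (t + 1) (step t (w, p.2, ⟪p.2, p.1⟫)) p.1)
      (Measurable.ite ((h2 t).comp hz (measurableSet_singleton true))
        (measurable_sel (ho (t + 1)) ((h1 t).comp hz) measurable_fst)
        (measurable_sel (ih (t + 1)) ((h1 t).comp hz) measurable_fst))

theorem pay_le_one (ho : ∀ t w s, o t w s ≤ 1) (n t : ℕ) (w : Fin N) (s : E) :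
    pay step stop o n t w s ≤ 1 := by
  induction n generalizing t w with
  | zero => exact ho t w s
  | succ n ih =>
    refine (lintegral_mono (g := fun _ => 1) fun x => ?_).trans (by simp)
    dsimp only
    split_ifs
    · exact ho _ _ _
    · exact ih _ _

theorem pay_block (h1 : ∀ t, Measurable (step t)) (h2 : ∀ t, Measurable (stop t))
    (k n t : ℕ) (w : Fin N) :
    ∃ F : (Fin k → E × ℝ) → ℕ × Fin N × Bool, Measurable F ∧ (∀ z, (F z).1 ≤ k) ∧
      ∀ s, pay step stop o n t w s = ∫⁻ X,
        (fun j : ℕ × Fin N × Bool => if j.2.2 = true then o (t + j.1) j.2.1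
          else pay step stop o (n - k) (t + k) j.2.1) (F fun i => (X i, ⟪X i, s⟫)) s
        ∂(Measure.pi fun _ : Fin k => stdGaussian E) := by
  induction k generalizing n t w with
  | zero => exact ⟨fun _ => (0, w, false), measurable_const, fun _ => le_rfl, fun s => by simp⟩
  | succ k ih =>
    cases n with
    | zero =>
      exact ⟨fun _ => (0, w, true), measurable_const, fun _ => Nat.zero_le _, fun s => by
        simp [pay]⟩
    | succ n =>
      choose F hF1 hF2 hF3 using ih n (t + 1)
      have hz : Measurable fun z : Fin (k + 1) → E × ℝ => (w, z 0) := by fun_prop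
      have htail : Measurable fun z : Fin (k + 1) → E × ℝ => Fin.tail z :=
        measurable_pi_iff.2 fun i => measurable_pi_apply _
      have hG : Measurable fun z : Fin (k + 1) → E × ℝ => F (step t (w, z 0)) (Fin.tail z) :=
        (measurable_from_prod_countable_right
          (f := fun p : Fin N × (Fin k → E × ℝ) => F p.1 p.2) hF1).comp
          (((h1 t).comp hz).prodMk htail)
      let G : (Fin (k + 1) → E × ℝ) → ℕ × Fin N × Bool := fun z =>
        if stop t (w, z 0) = true then (1, step t (w, z 0), true)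
        else ((F (step t (w, z 0)) (Fin.tail z)).1 + 1, (F (step t (w, z 0)) (Fin.tail z)).2)
      have hGm : Measurable G :=
        Measurable.ite ((h2 t).comp hz (measurableSet_singleton true))
          (measurable_const.prodMk (((h1 t).comp hz).prodMk measurable_const))
          ((hG.fst.add_const 1).prodMk hG.snd)
      refine ⟨G, hGm, fun z => ?_, fun s => ?_⟩
      · simp only [G]
        split_ifs
        · simp
        · simpa using hF2 _ _
      · have hl : Measurable fun X : Fin (k + 1) → E => fun i => (X i, ⟪X i, s⟫) := by fun_prop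
        rw [lintegral_pi_succ _ (g := fun X => (fun j : ℕ × Fin N × Bool =>
          if j.2.2 = true then o (t + j.1) j.2.1
          else pay step stop o (n + 1 - (k + 1)) (t + (k + 1)) j.2.1)
            (G fun i => (X i, ⟪X i, s⟫)) s)
          ((measurable_of_countable (fun j : ℕ × Fin N × Bool => (if j.2.2 = true then
            o (t + j.1) j.2.1
            else pay step stop o (n + 1 - (k + 1)) (t + (k + 1)) j.2.1) s)).comp (hGm.comp hl))]
        rw [pay]
        refine lintegral_congr fun x => ?_
        simp only [G, Fin.cons_zero]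
        by_cases h : stop t (w, x, ⟪x, s⟫) = true
        · simp [h]
        · simp only [if_neg h]
          rw [hF3]
          refine lintegral_congr fun X => ?_
          have e : (Fin.tail fun i : Fin (k + 1) => ((Fin.cons x X : Fin (k + 1) → E) i,
              ⟪(Fin.cons x X : Fin (k + 1) → E) i, s⟫)) = fun i => (X i, ⟪X i, s⟫) := by
            funext i; simp [Fin.tail]
          simp only [e, Nat.add_sub_add_right, add_assoc, add_comm 1]

theorem pay_frost {n M : ℕ} (hn : 0 < n) (hd : 0 < Module.finrank ℝ E)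
    (hdn : Module.finrank ℝ E ≤ 32 * n) (hN : N ≤ 2 ^ M) {μ : Measure E} [IsFiniteMeasure μ]
    (h1 : ∀ t, Measurable (step t)) (h2 : ∀ t, Measurable (stop t))
    (ho : ∀ t w, Measurable (o t w)) (ho1 : ∀ t w s, o t w s ≤ 1) {Λ : ℝ≥0∞} (h0 : Λ ≠ 0)
    (hΛ : Λ ≠ ⊤) (hF : ∀ t w, Frost (μ.withDensity (o t w)) Λ (5 * n + 1)) (b T : ℕ)
    (hT : T ≤ b * (2 * n)) (t : ℕ) (w : Fin N) :
    Frost (μ.withDensity (pay step stop o T t w)) (2 ^ ((M / n + 26 * n) * b) * Λ) (5 * n + 1) := by
  induction b generalizing T t w with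
  | zero =>
    obtain rfl : T = 0 := by omega
    rw [mul_zero, pow_zero, one_mul]
    exact hF t w
  | succ b ih =>
    obtain ⟨F, hF1, hF2, hF3⟩ := pay_block (o := o) h1 h2 (2 * n) T t w
    have hp : (1 : ℝ≥0∞) ≤ 2 ^ ((M / n + 26 * n) * b) := one_le_pow₀ (by norm_num)
    have key := block_step (m := M / n + 3) hn hd hdn (μ := μ)
      (Finset.range (2 * n + 1) ×ˢ (Finset.univ : Finset (Fin N × Bool))) ?_
      (u := fun j : ℕ × Fin N × Bool => if j.2.2 = true then o (t + j.1) j.2.1
          else pay step stop o (T - 2 * n) (t + 2 * n) j.2.1) ?_ ?_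
      (Λ := 2 ^ ((M / n + 26 * n) * b) * Λ) (mul_ne_zero (pow_ne_zero _ two_ne_zero) h0)
      (ENNReal.mul_ne_top (ENNReal.pow_ne_top ENNReal.ofNat_ne_top) hΛ) ?_
      (F := fun z => F fun i => (z.1 i, z.2 i)) (hF1.comp (by fun_prop)) ?_ hF3
    · refine key.mono le_rfl ?_
      rw [← mul_assoc, ← pow_add]
      gcongr
      · norm_num
      · rw [mul_add, mul_one]; omega
    · rw [Finset.card_product, Finset.card_range, Finset.card_univ, Fintype.card_prod,
        Fintype.card_fin, Fintype.card_bool]
      have a1 : 2 * n + 1 ≤ 2 ^ (2 * n) := Nat.lt_two_pow_self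
      have a2 : 2 * n + (M + 1) ≤ (M / n + 3) * n := by
        have := Nat.div_add_mod M n
        have := Nat.mod_lt M hn
        nlinarith
      calc _ ≤ 2 ^ (2 * n) * (2 ^ M * 2) := by gcongr
        _ = 2 ^ (2 * n + (M + 1)) := by ring
        _ ≤ _ := Nat.pow_le_pow_right two_pos a2
    · intro j
      split_ifs
      · exact ho _ _
      · exact measurable_pay h1 h2 ho _ _ _
    · intro j s
      split_ifs
      · exact ho1 _ _ _
      · exact pay_le_one ho1 _ _ _ _
    · intro j _
      split_ifs
      · exact (hF _ _).mono le_rfl (le_mul_of_one_le_left' hp)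
      · exact ih _ (by rw [add_mul, one_mul] at hT; omega) _ _
    · intro z
      simpa [Nat.lt_succ_iff] using hF2 _

end Vale.Agent.P309
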