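import Vale.Agent.P309.Moment

/-! The single-set inequality for the law of rows and labels. -/

namespace Vale.Agent.P309

open MeasureTheory ProbabilityTheory Set Metric
open scoped ENNReal NNReal RealInnerProductSpace

variable {E : Type*} [NormedAddCommGroup E] [InnerProductSpace ℝ E] [FiniteDimensional ℝ E]
  [MeasurableSpace E] [BorelSpace E]

/-- The labels of a block of rows. -/
noncomputable def lab {k : ℕ} (X : Fin k → E) (s : E) : Fin k → ℝ := fun i => ⟪X i, s⟫

omit [FiniteDimensional ℝ E] [MeasurableSpace E] [BorelSpace E] in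
theorem continuous_lab (k : ℕ) : Continuous fun p : (Fin k → E) × E => lab p.1 p.2 := by
  unfold lab; fun_prop

theorem measurable_lab (k : ℕ) : Measurable fun p : (Fin k → E) × E => lab p.1 p.2 :=
  (continuous_lab k).measurable

theorem measurableSet_tube (k : ℕ) (η : ℝ) :
    MeasurableSet {p : ((Fin k → E) × (Fin k → ℝ)) × E | dist (lab p.1.1 p.2) p.1.2 ≤ η} := by
  apply measurableSet_le _ measurable_const
  exact ((measurable_lab k).comp (f := fun p : ((Fin k → E) × (Fin k → ℝ)) × E => (p.1.1, p.2))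
    (by fun_prop)).dist (by fun_prop)

theorem smooth_moment {ν : Measure E} [IsFiniteMeasure ν] {Λ : ℝ≥0∞} (hΛ : Λ ≠ ⊤) {k β q : ℕ}
    (h : Frost ν Λ (k + β)) (hβ : 3 * q + 1 ≤ β) (c : E) {r η : ℝ} (hr : 0 < r) (hη : 0 < η)
    (hν : ∀ᵐ s ∂ν, s ∈ closedBall c r) :
    ∫⁻ z : (Fin k → E) × (Fin k → ℝ), (ν {s | dist (lab z.1 s) z.2 ≤ η}) ^ (q + 1)
      ∂((Measure.pi fun _ : Fin k => stdGaussian E).prod volume) ≤
    ENNReal.ofReal ((2 * η) ^ k) * (ν univ * (Λ * ENNReal.ofReal (2 ^ (2 * k + β + 1) * (2 * r) ^ β)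
      * ENNReal.ofReal ((2 * η) ^ k)) ^ q) := by
  set P := Measure.pi fun _ : Fin k => stdGaussian E with hP
  have hG : Measurable fun z : (Fin k → E) × (Fin k → ℝ) => ν {s | dist (lab z.1 s) z.2 ≤ η} :=
    measurable_measure_prodMk_left (measurableSet_tube k η)
  let f : (Fin k → E) × (Fin k → ℝ) → E → ℝ≥0∞ := fun z s =>
    {p : ((Fin k → E) × (Fin k → ℝ)) × E | dist (lab p.1.1 p.2) p.1.2 ≤ η}.indicator
      (fun p => (ν {s | dist (lab p.1.1 s) p.1.2 ≤ η}) ^ q) (z, s)
  have hf : Measurable (Function.uncurry f) :=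
    ((hG.comp measurable_fst).pow_const q).indicator (measurableSet_tube k η)
  have e1 : ∀ z : (Fin k → E) × (Fin k → ℝ),
      (ν {s | dist (lab z.1 s) z.2 ≤ η}) ^ (q + 1) = ∫⁻ s, f z s ∂ν := by
    intro z
    have hS : MeasurableSet {s : E | dist (lab z.1 s) z.2 ≤ η} :=
      measurable_prodMk_left (measurableSet_tube k η)
    rw [pow_succ, ← lintegral_indicator_const hS]
    rfl
  simp_rw [e1]
  rw [lintegral_lintegral_swap hf.aemeasurable]
  have e2 : ∀ᵐ s₁ ∂ν, ∫⁻ z, f z s₁ ∂(P.prod volume) ≤ ENNReal.ofReal ((2 * η) ^ k) *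
      (Λ * ENNReal.ofReal (2 ^ (2 * k + β + 1) * (2 * r) ^ β)
        * ENNReal.ofReal ((2 * η) ^ k)) ^ q := by
    filter_upwards [hν] with s₁ hs₁
    have hν' : ∀ᵐ s ∂ν, ‖s - s₁‖ ≤ 2 * r := by
      filter_upwards [hν] with s hs
      rw [← dist_eq_norm]
      have := dist_triangle_right s s₁ c
      rw [mem_closedBall] at hs hs₁
      linarith
    have a1 := moment hΛ h hβ s₁ (δ := 2 * η) (by positivity) (by positivity) hν' q ⊥ univ
      (by simp) MeasurableSet.univ (by simp)
    simp only [pi_univ, Measure.restrict_univ, measure_univ, one_pow, one_mul] at a1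
    rw [lintegral_prod (fun z => f z s₁)
      (hf.comp (f := fun z => (z, s₁)) (by fun_prop)).aemeasurable]
    refine le_trans (lintegral_mono (g := fun X => ENNReal.ofReal ((2 * η) ^ k) *
      (ν {s | ∀ i, |⟪X i, s - s₁⟫| ≤ 2 * η}) ^ q) fun X => ?_) ?_
    · calc ∫⁻ Y, f (X, Y) s₁ ≤ ∫⁻ Y, (closedBall (lab X s₁) η).indicator
            (fun _ => (ν {s | ∀ i, |⟪X i, s - s₁⟫| ≤ 2 * η}) ^ q) Y := by
            apply lintegral_mono
            intro Y
            by_cases hY : dist (lab X s₁) Y ≤ η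
            · simp only [f]
              rw [indicator_of_mem (by exact hY), indicator_of_mem (mem_closedBall'.2 hY)]
              refine pow_le_pow_left' (measure_mono ?_) _
              intro s hs i
              have b1 := (dist_triangle_right (lab X s) (lab X s₁) Y).trans (add_le_add hs hY)
              have b2 := (dist_le_pi_dist (lab X s) (lab X s₁) i).trans b1
              rw [inner_sub_right, two_mul]
              exact b2
            · simp only [f]
              rw [indicator_of_notMem (by exact hY)]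
              exact zero_le
        _ = _ := by
            rw [lintegral_indicator_const measurableSet_closedBall,
              Real.volume_pi_closedBall _ hη.le, Fintype.card_fin, mul_comm]
    · rw [lintegral_const_mul' _ _ ENNReal.ofReal_ne_top]
      gcongr
  refine (lintegral_mono_ae e2).trans (le_of_eq ?_)
  rw [lintegral_const]; ring

theorem smooth_lower {ν : Measure E} [IsFiniteMeasure ν] {k : ℕ} {η : ℝ} (hη : 0 < η)
    {U W : Set ((Fin k → E) × (Fin k → ℝ))} (hU : MeasurableSet U) (hW : MeasurableSet W)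
    (hUW : ∀ z ∈ W, closedBall z η ⊆ U) :
    ENNReal.ofReal ((2 * η) ^ k) *
      ∫⁻ s, (Measure.pi fun _ : Fin k => stdGaussian E) {X | (X, lab X s) ∈ W} ∂ν ≤
    ∫⁻ z in U, ν {s | dist (lab z.1 s) z.2 ≤ η}
      ∂((Measure.pi fun _ : Fin k => stdGaussian E).prod volume) := by
  set P := Measure.pi fun _ : Fin k => stdGaussian E with hP
  set T := (U ×ˢ univ) ∩
    {p : ((Fin k → E) × (Fin k → ℝ)) × E | dist (lab p.1.1 p.2) p.1.2 ≤ η} with hT
  have hTm : MeasurableSet T := (hU.prod MeasurableSet.univ).inter (measurableSet_tube k η)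
  have e1 : ∫⁻ z in U, ν {s | dist (lab z.1 s) z.2 ≤ η} ∂(P.prod volume) =
      ((P.prod volume).prod ν) T := by
    rw [Measure.prod_apply hTm, ← lintegral_indicator hU]
    refine lintegral_congr fun z => ?_
    by_cases hz : z ∈ U
    · rw [indicator_of_mem hz]; congr 1; ext s; simp [hT, hz]
    · rw [indicator_of_notMem hz]
      have : Prod.mk z ⁻¹' T = ∅ := by ext s; simp [hT, hz]
      rw [this, measure_empty]
  rw [e1, Measure.prod_apply_symm hTm, ← lintegral_const_mul' _ _ ENNReal.ofReal_ne_top]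
  apply lintegral_mono
  intro s
  have hTs : MeasurableSet ((fun z => (z, s)) ⁻¹' T) := measurable_prodMk_right hTm
  have hWs : MeasurableSet {X : Fin k → E | (X, lab X s) ∈ W} :=
    (measurable_id.prodMk ((measurable_lab k).comp (f := fun X => (X, s)) (by fun_prop))) hW
  simp only
  rw [Measure.prod_apply hTs, ← lintegral_indicator_const hWs]
  apply lintegral_mono
  intro X
  by_cases hX : (X, lab X s) ∈ W
  · have hv := Real.volume_pi_closedBall (lab X s) hη.le
    rw [Fintype.card_fin] at hv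
    rw [indicator_of_mem (by exact hX), ← hv]
    apply measure_mono
    intro Y hY
    refine ⟨⟨hUW _ hX ?_, mem_univ _⟩, mem_closedBall'.1 hY⟩
    rw [mem_closedBall, Prod.dist_eq, dist_self]
    exact max_le hη.le hY
  · rw [indicator_of_notMem (by exact hX)]
    exact zero_le

theorem le_add_pow_div {G θ : ℝ≥0∞} (h0 : θ ≠ 0) (h1 : θ ≠ ⊤) (q : ℕ) :
    G ≤ θ + (θ ^ q)⁻¹ * G ^ (q + 1) := by
  rcases le_total G θ with h | h
  · exact h.trans le_self_add
  · refine le_trans ?_ le_add_self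
    calc G = (θ ^ q)⁻¹ * (θ ^ q * G) := by
          rw [← mul_assoc, ENNReal.inv_mul_cancel (pow_ne_zero _ h0) (ENNReal.pow_ne_top h1),
            one_mul]
      _ ≤ _ := by rw [pow_succ]; gcongr

theorem radon {ν : Measure E} [IsFiniteMeasure ν] {Λ : ℝ≥0∞} (hΛ : Λ ≠ ⊤) {k β q : ℕ}
    (h : Frost ν Λ (k + β)) (hβ : 3 * q + 1 ≤ β) (c : E) {r : ℝ} (hr : 0 < r)
    (hν : ∀ᵐ s ∂ν, s ∈ closedBall c r) {θ : ℝ≥0∞} (h0 : θ ≠ 0) (h1 : θ ≠ ⊤)
    {A : Set ((Fin k → E) × (Fin k → ℝ))} :
    ∫⁻ s, (Measure.pi fun _ : Fin k => stdGaussian E) {X | (X, lab X s) ∈ A} ∂ν ≤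
      θ * ((Measure.pi fun _ : Fin k => stdGaussian E).prod volume) A +
      ν univ * ((θ ^ q)⁻¹ * (Λ * ENNReal.ofReal (2 ^ (2 * k + β + 1) * (2 * r) ^ β)) ^ q) := by
  set P := Measure.pi fun _ : Fin k => stdGaussian E with hP
  set K := Λ * ENNReal.ofReal (2 ^ (2 * k + β + 1) * (2 * r) ^ β) with hK
  have hmap : Measurable fun p : E × (Fin k → E) => (p.2, lab p.2 p.1) :=
    measurable_snd.prodMk ((measurable_lab k).comp measurable_swap)
  set ρ := (ν.prod P).map (fun p : E × (Fin k → E) => (p.2, lab p.2 p.1)) with hρ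
  have hρW : ∀ W, MeasurableSet W → ρ W = ∫⁻ s, P {X | (X, lab X s) ∈ W} ∂ν := by
    intro W hW
    rw [hρ, Measure.map_apply hmap hW, Measure.prod_apply (hmap hW)]
    rfl
  have hopen : ∀ U, IsOpen U → ρ U ≤ θ * (P.prod volume) U + ν univ * ((θ ^ q)⁻¹ * K ^ q) := by
    intro U hU
    let W : ℕ → Set ((Fin k → E) × (Fin k → ℝ)) := fun n =>
      {z | ENNReal.ofReal (1 / ((n : ℝ) + 1)) < infEDist z Uᶜ}
    have hWm : ∀ n, MeasurableSet (W n) := fun n =>
      (isOpen_lt continuous_const continuous_infEDist).measurableSet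
    have hWmono : Monotone W := by
      intro n m hnm z hz
      refine lt_of_le_of_lt (ENNReal.ofReal_le_ofReal ?_) hz
      exact Nat.one_div_le_one_div hnm
    have hWU : U ⊆ ⋃ n, W n := by
      intro z hz
      obtain ⟨ε, hε, hε2⟩ := exists_real_pos_lt_infEDist_of_notMem_closure
        (x := z) (E := Uᶜ) (by rw [hU.isClosed_compl.closure_eq]; simpa using hz)
      obtain ⟨n, hn⟩ := exists_nat_one_div_lt hε
      exact mem_iUnion.2 ⟨n, lt_of_le_of_lt (ENNReal.ofReal_le_ofReal hn.le) hε2⟩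
    refine (measure_mono hWU).trans ?_
    rw [hWmono.measure_iUnion]
    refine iSup_le fun n => ?_
    set η : ℝ := 1 / ((n : ℝ) + 1) with hη
    have hη0 : 0 < η := by positivity
    set a := ENNReal.ofReal ((2 * η) ^ k) with ha
    have ha0 : a ≠ 0 := by rw [ha]; simp only [ne_eq, ENNReal.ofReal_eq_zero, not_le]; positivity
    have ha1 : a ≠ ⊤ := ENNReal.ofReal_ne_top
    have b1 := smooth_lower (ν := ν) hη0 hU.measurableSet (hWm n) (by
      intro z hz y hy
      by_contra hyU
      have c1 : infEDist z Uᶜ ≤ edist z y := infEDist_le_edist_of_mem hyU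
      have c2 : edist z y ≤ ENNReal.ofReal η := by
        rw [edist_dist]; exact ENNReal.ofReal_le_ofReal (mem_closedBall'.1 hy)
      exact absurd (lt_of_lt_of_le hz (c1.trans c2)) (lt_irrefl _))
    have b2 := smooth_moment hΛ h hβ c hr hη0 hν
    rw [← hρW _ (hWm n)] at b1
    rw [← ENNReal.mul_le_mul_iff_right ha0 ha1]
    refine b1.trans ?_
    have hθa0 : θ * a ≠ 0 := mul_ne_zero h0 ha0
    have hθa1 : θ * a ≠ ⊤ := ENNReal.mul_ne_top h1 ha1
    refine (lintegral_mono fun z => le_add_pow_div hθa0 hθa1 q).trans ?_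
    rw [lintegral_add_left measurable_const, setLIntegral_const,
      lintegral_const_mul' _ _ (ENNReal.inv_ne_top.2 (pow_ne_zero _ hθa0)), mul_add]
    refine add_le_add (le_of_eq (by ring)) ?_
    calc _ ≤ ((θ * a) ^ q)⁻¹ * (a * (ν univ * (K * a) ^ q)) := by
          gcongr
          exact (setLIntegral_le_lintegral _ _).trans b2
      _ = a * (ν univ * ((θ ^ q)⁻¹ * K ^ q)) * ((a ^ q)⁻¹ * a ^ q) := by
          rw [mul_pow, mul_pow, ENNReal.mul_inv (Or.inl (pow_ne_zero _ h0))
            (Or.inl (ENNReal.pow_ne_top h1))]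
          ring
      _ = _ := by
          rw [ENNReal.inv_mul_cancel (pow_ne_zero _ ha0) (ENNReal.pow_ne_top ha1), mul_one]
  apply ENNReal.le_of_forall_pos_le_add
  intro ε hε _
  obtain ⟨U, hAU, hU, hU2⟩ := Set.exists_isOpen_le_add A (P.prod volume) (ε := θ⁻¹ * ε)
    (mul_ne_zero (ENNReal.inv_ne_zero.2 h1) (by exact_mod_cast hε.ne'))
  calc _ ≤ ∫⁻ s, P {X | (X, lab X s) ∈ U} ∂ν :=
        lintegral_mono fun s => measure_mono fun X hX => hAU hX
    _ = ρ U := (hρW U hU.measurableSet).symm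
    _ ≤ θ * ((P.prod volume) A + θ⁻¹ * ε) + ν univ * ((θ ^ q)⁻¹ * K ^ q) :=
        (hopen U hU).trans (by gcongr)
    _ = _ := by
        rw [mul_add, ← mul_assoc, ENNReal.mul_inv_cancel h0 h1, one_mul]; ring

end Vale.Agent.P309
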