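import Vale.Agent.P309.Radon

/-! The region swept by the labels of a ball. -/

namespace Vale.Agent.P309

open MeasureTheory ProbabilityTheory Set Metric
open scoped ENNReal NNReal RealInnerProductSpace

theorem lintegral_pi_succ {α : Type*} [MeasurableSpace α] (μ : Measure α) [SigmaFinite μ] {n : ℕ}
    {g : (Fin (n + 1) → α) → ℝ≥0∞} (hg : Measurable g) :
    ∫⁻ X, g X ∂(Measure.pi fun _ : Fin (n + 1) => μ) =
      ∫⁻ x, ∫⁻ X, g (Fin.cons x X) ∂(Measure.pi fun _ : Fin n => μ) ∂μ := by
  have h := (measurePreserving_piFinSuccAbove (fun _ : Fin (n + 1) => μ) 0).symm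
  rw [← h.lintegral_comp hg, lintegral_prod
    (fun a => g ((MeasurableEquiv.piFinSuccAbove (fun _ => α) 0).symm a))
    (hg.comp (MeasurableEquiv.piFinSuccAbove _ _).symm.measurable).aemeasurable]
  simp [MeasurableEquiv.piFinSuccAbove_symm_apply, Fin.insertNthEquiv]

theorem measurable_cons {α : Type*} [MeasurableSpace α] (n : ℕ) :
    Measurable fun p : α × (Fin n → α) => (Fin.cons p.1 p.2 : Fin (n + 1) → α) := by
  refine measurable_pi_iff.2 fun i => ?_
  refine Fin.cases ?_ (fun j => ?_) i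
  · simp only [Fin.cons_zero]; exact measurable_fst
  · simp only [Fin.cons_succ]; exact (measurable_pi_apply j).comp measurable_snd

theorem lintegral_pi_prod {α : Type*} [MeasurableSpace α] (μ : Measure α) [SigmaFinite μ]
    {f : α → ℝ≥0∞} (hf : Measurable f) (n : ℕ) :
    ∫⁻ X, ∏ i, f (X i) ∂(Measure.pi fun _ : Fin n => μ) = (∫⁻ x, f x ∂μ) ^ n := by
  induction n with
  | zero => simp
  | succ n ih =>
    rw [lintegral_pi_succ μ (g := fun X => ∏ i, f (X i))
      (Finset.measurable_prod _ fun i _ => hf.comp (measurable_pi_apply i))]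
    simp only [Fin.prod_univ_succ, Fin.cons_zero, Fin.cons_succ]
    have hm : Measurable fun X : Fin n → α => ∏ i, f (X i) :=
      Finset.measurable_prod _ fun i _ => hf.comp (measurable_pi_apply i)
    simp_rw [lintegral_const_mul _ hm, ih]
    rw [lintegral_mul_const _ hf, pow_succ']

theorem hadamard {k : ℕ} (a : Fin k → EuclideanSpace ℝ (Fin k)) :
    |(Matrix.of fun i j => a i j).det| ≤ ∏ i, ‖a i‖ := by
  have : Fact (Module.finrank ℝ (EuclideanSpace ℝ (Fin k)) = k) := ⟨by simp⟩
  have h1 := (EuclideanSpace.basisFun (Fin k) ℝ).toBasis.orientation.abs_volumeForm_apply_le a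
  rw [Orientation.volumeForm_robust' _ (EuclideanSpace.basisFun (Fin k) ℝ), Module.Basis.det_apply,
    ← Matrix.det_transpose] at h1
  exact h1

variable {E : Type*} [NormedAddCommGroup E] [InnerProductSpace ℝ E] [FiniteDimensional ℝ E]

theorem exists_reduce {k : ℕ} (X : Fin k → E) :
    ∃ a : Fin k → EuclideanSpace ℝ (Fin k), (∀ i, ‖a i‖ = ‖X i‖) ∧
      ∀ u : E, ∃ t : EuclideanSpace ℝ (Fin k), ‖t‖ ≤ ‖u‖ ∧ ∀ i, ⟪X i, u⟫ = ⟪a i, t⟫ := by
  set W := Submodule.span ℝ (range X) with hW
  have hk : Module.finrank ℝ W ≤ k := (finrank_range_le_card (R := ℝ) X).trans (by simp)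
  let b := stdOrthonormalBasis ℝ W
  let f : W →ₗ[ℝ] EuclideanSpace ℝ (Fin k) :=
    b.toBasis.constr ℝ (fun j => EuclideanSpace.basisFun (Fin k) ℝ (Fin.castLE hk j))
  have hf : Orthonormal ℝ (f ∘ b.toBasis) := by
    have : f ∘ b.toBasis = (EuclideanSpace.basisFun (Fin k) ℝ) ∘ Fin.castLE hk := by
      funext j; simp only [f, Function.comp, Module.Basis.constr_basis]
    rw [this]
    exact (EuclideanSpace.basisFun (Fin k) ℝ).orthonormal.comp _ (Fin.castLE_injective hk)
  let ι := f.isometryOfOrthonormal (v := b.toBasis) b.orthonormal hf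
  have hX : ∀ i, X i ∈ W := fun i => Submodule.subset_span (mem_range_self i)
  refine ⟨fun i => ι ⟨X i, hX i⟩, fun i => ι.norm_map _, fun u => ?_⟩
  refine ⟨ι ⟨W.starProjection u, W.starProjection_apply_mem u⟩, ?_, fun i => ?_⟩
  · rw [ι.norm_map]; exact W.norm_starProjection_apply_le u
  · rw [ι.inner_map_map]
    change _ = ⟪X i, W.starProjection u⟫
    rw [← Submodule.inner_starProjection_left_eq_right, Submodule.starProjection_eq_self_iff.2 (hX i)]

theorem section_volume {n : ℕ} (hn : 0 < n) (X : Fin (2 * n) → E) (c : E) {r : ℝ} (hr : 0 < r) :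
    volume {Y : Fin (2 * n) → ℝ | ∃ u ∈ closedBall c r, Y = lab X u} ≤
      (∏ i, ENNReal.ofReal ‖X i‖) *
        ENNReal.ofReal (r ^ (2 * n) * (Real.pi ^ n / n.factorial)) := by
  obtain ⟨a, ha1, ha2⟩ := exists_reduce X
  set L : (Fin (2 * n) → ℝ) →ₗ[ℝ] (Fin (2 * n) → ℝ) := Matrix.toLin' (Matrix.of fun i j => a i j)
    with hL
  set Bk := (WithLp.toLp 2) ⁻¹' (closedBall (0 : EuclideanSpace ℝ (Fin (2 * n))) r) with hBk
  have hsub : {Y : Fin (2 * n) → ℝ | ∃ u ∈ closedBall c r, Y = lab X u} ⊆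
      (fun Y => -lab X c + Y) ⁻¹' (L '' Bk) := by
    rintro Y ⟨u, hu, rfl⟩
    obtain ⟨t, ht1, ht2⟩ := ha2 (u - c)
    refine ⟨t.ofLp, ?_, ?_⟩
    · simp only [hBk, mem_preimage, WithLp.toLp_ofLp, mem_closedBall, dist_zero_right]
      exact ht1.trans (by rwa [mem_closedBall, dist_eq_norm] at hu)
    · funext i
      have := ht2 i
      rw [inner_sub_right] at this
      simp only [hL, lab, Pi.add_apply, Pi.neg_apply, Matrix.toLin'_apply, Matrix.mulVec,
        dotProduct, Matrix.of_apply]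
      rw [neg_add_eq_sub, this, PiLp.inner_apply]
      simp [mul_comm]
  refine (measure_mono hsub).trans ?_
  rw [measure_preimage_add, Measure.addHaar_image_linearMap, hL, LinearMap.det_toLin', hBk,
    (PiLp.volume_preserving_toLp _).measure_preimage measurableSet_closedBall.nullMeasurableSet]
  have : Nonempty (Fin (2 * n)) := ⟨⟨0, by omega⟩⟩
  rw [InnerProductSpace.volume_closedBall_of_dim_even (k := n) (by simp),
    ENNReal.ofReal_mul (by positivity), ENNReal.ofReal_pow hr.le,
    ← ENNReal.ofReal_prod_of_nonneg fun _ _ => norm_nonneg _]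
  simp only [finrank_euclideanSpace, Fintype.card_fin]
  gcongr
  simpa only [ha1] using hadamard a

omit [FiniteDimensional ℝ E] in
theorem isClosed_region [ProperSpace E] (k : ℕ) (c : E) (r : ℝ) :
    IsClosed {z : (Fin k → E) × (Fin k → ℝ) | ∃ u ∈ closedBall c r, z.2 = lab z.1 u} := by
  have : CompactSpace (closedBall c r) := isCompact_iff_compactSpace.1 (isCompact_closedBall c r)
  have h : IsClosed {p : ((Fin k → E) × (Fin k → ℝ)) × closedBall c r |
      p.1.2 = lab p.1.1 (p.2 : E)} :=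
    isClosed_eq (by fun_prop) ((continuous_lab k).comp
      (f := fun p : ((Fin k → E) × (Fin k → ℝ)) × closedBall c r => (p.1.1, (p.2 : E)))
      (by fun_prop))
  have := isClosedMap_fst_of_compactSpace _ h
  have e : {z : (Fin k → E) × (Fin k → ℝ) | ∃ u ∈ closedBall c r, z.2 = lab z.1 u} =
      Prod.fst '' {p : ((Fin k → E) × (Fin k → ℝ)) × closedBall c r |
        p.1.2 = lab p.1.1 (p.2 : E)} := by
    ext z
    constructor
    · rintro ⟨u, hu, h⟩; exact ⟨(z, ⟨u, hu⟩), h, rfl⟩
    · rintro ⟨⟨z', u⟩, h, rfl⟩; exact ⟨u, u.2, h⟩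
  rwa [e]

variable [MeasurableSpace E] [BorelSpace E]

theorem region_bound {n : ℕ} (hn : 0 < n) (hd : 0 < Module.finrank ℝ E)
    (hdn : Module.finrank ℝ E ≤ 32 * n) (c : E) {r : ℝ} (hr : 0 < r) :
    ((Measure.pi fun _ : Fin (2 * n) => stdGaussian E).prod volume)
      {z : (Fin (2 * n) → E) × (Fin (2 * n) → ℝ) | ∃ u ∈ closedBall c r, z.2 = lab z.1 u} ≤
      ENNReal.ofReal (2 ^ (9 * n) * r ^ (2 * n)) := by
  rw [Measure.prod_apply (isClosed_region _ c r).measurableSet]
  refine (lintegral_mono fun X => section_volume hn X c hr).trans ?_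
  have hf : Measurable fun x : E => ENNReal.ofReal ‖x‖ := by fun_prop
  rw [lintegral_mul_const' _ _ ENNReal.ofReal_ne_top, lintegral_pi_prod _ hf]
  calc _ ≤ ENNReal.ofReal (Real.sqrt (Module.finrank ℝ E)) ^ (2 * n) *
        ENNReal.ofReal (r ^ (2 * n) * (Real.pi ^ n / n.factorial)) := by
        gcongr; exact lintegral_norm_le hd
    _ ≤ _ := by
        rw [← ENNReal.ofReal_pow (by positivity), ← ENNReal.ofReal_mul (by positivity)]
        apply ENNReal.ofReal_le_ofReal
        rw [pow_mul, Real.sq_sqrt (by positivity)]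
        have h1 := Real.pow_div_factorial_le_exp (n : ℝ) (by positivity) n
        have h2 : Real.exp n ≤ 3 ^ n := by
          rw [← mul_one (n : ℝ), Real.exp_nat_mul]
          gcongr
          exact Real.exp_one_lt_three.le
        have h3 : (Module.finrank ℝ E : ℝ) ≤ 32 * n := by exact_mod_cast hdn
        calc (Module.finrank ℝ E : ℝ) ^ n * (r ^ (2 * n) * (Real.pi ^ n / n.factorial))
            ≤ (32 * n) ^ n * (r ^ (2 * n) * (4 ^ n / n.factorial)) := by
              gcongr; exact Real.pi_le_four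
          _ = 128 ^ n * ((n : ℝ) ^ n / n.factorial) * r ^ (2 * n) := by
              rw [mul_pow, show (128 : ℝ) = 32 * 4 by norm_num, mul_pow]; ring
          _ ≤ 128 ^ n * 3 ^ n * r ^ (2 * n) := by gcongr; exact h1.trans h2
          _ ≤ _ := by
              rw [← mul_pow, pow_mul (2 : ℝ) 9 n]; gcongr; norm_num

end Vale.Agent.P309
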